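import Vale.Agent.P267.H399.Wirt
import Vale.Agent.P268.Hol

/-!
# P267: `∂∂̄` of local weights (package D-PAIR), calculus on open sets of `ℂ²`
-/

open scoped Manifold ContDiff ComplexConjugate Matrix
open MeasureTheory Set Filter Topology

noncomputable section

namespace Vale.Agent.P267.H332

open Vale.Agent.P267.FL

/-- `∂_i ∂̄_j u` in `ℂ²` -/
def ddz (u : C2 → ℂ) (z : C2) : Matrix (Fin 2) (Fin 2) ℂ := Matrix.of fun i j => dz i (dzb j u) z

@[simp] theorem ddz_apply (u : C2 → ℂ) (z : C2) (i j : Fin 2) :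
    ddz u z i j = dz i (dzb j u) z := rfl

theorem dzb_congr' {f g : C2 → ℂ} {z : C2} (h : f =ᶠ[𝓝 z] g) (j : Fin 2) :
    dzb j f =ᶠ[𝓝 z] dzb j g := by
  filter_upwards [h.eventually_nhds] with y hy
  exact dzb_congr hy j

theorem dz_congr' {f g : C2 → ℂ} {z : C2} (h : f =ᶠ[𝓝 z] g) (j : Fin 2) :
    dz j f =ᶠ[𝓝 z] dz j g := by
  filter_upwards [h.eventually_nhds] with y hy
  exact dz_congr hy j

theorem ddz_congr {f g : C2 → ℂ} {z : C2} (h : f =ᶠ[𝓝 z] g) : ddz f z = ddz g z := by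
  ext i j
  exact dz_congr (dzb_congr' h j) i

theorem ddz_const (c : ℂ) (z : C2) : ddz (fun _ => c) z = 0 := by
  ext i j
  have : (dzb j fun _ : C2 => c) = fun _ => 0 := by
    funext y
    exact dzb_const c y j
  simp [this]

theorem differentiableAt_dzb {f : C2 → ℂ} {z : C2} (hf : ContDiffAt ℝ 2 f z) (j : Fin 2) :
    DifferentiableAt ℝ (dzb j f) z :=
  (contDiffAt_dzb (m := 1) hf (by norm_num) j).differentiableAt (by norm_num)

theorem differentiableAt_dz {f : C2 → ℂ} {z : C2} (hf : ContDiffAt ℝ 2 f z) (j : Fin 2) :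
    DifferentiableAt ℝ (dz j f) z :=
  (contDiffAt_dz (m := 1) hf (by norm_num) j).differentiableAt (by norm_num)

theorem ddz_add {f g : C2 → ℂ} {z : C2} (hf : ContDiffAt ℝ 2 f z) (hg : ContDiffAt ℝ 2 g z) :
    ddz (fun y => f y + g y) z = ddz f z + ddz g z := by
  ext i j
  have h : (dzb j fun y => f y + g y) =ᶠ[𝓝 z] fun y => dzb j f y + dzb j g y := by
    filter_upwards [hf.eventually (by simp), hg.eventually (by simp)] with y h1 h2
    exact dzb_add (h1.differentiableAt (by norm_num)) (h2.differentiableAt (by norm_num)) j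
  rw [ddz_apply, dz_congr h, dz_add (differentiableAt_dzb hf j) (differentiableAt_dzb hg j)]
  rfl

theorem ddz_neg {f : C2 → ℂ} {z : C2} : ddz (fun y => -f y) z = -ddz f z := by
  ext i j
  have h : (dzb j fun y => -f y) = fun y => -dzb j f y := by
    funext y
    exact dzb_neg j
  rw [ddz_apply, h, dz_neg]
  rfl

theorem ddz_sub {f g : C2 → ℂ} {z : C2} (hf : ContDiffAt ℝ 2 f z) (hg : ContDiffAt ℝ 2 g z) :
    ddz (fun y => f y - g y) z = ddz f z - ddz g z := by
  have := ddz_add hf hg.neg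
  simp only [← sub_eq_add_neg] at this
  rw [this, ddz_neg, sub_eq_add_neg]

theorem ddz_const_mul (c : ℂ) {f : C2 → ℂ} {z : C2} (hf : ContDiffAt ℝ 2 f z) :
    ddz (fun y => c * f y) z = c • ddz f z := by
  ext i j
  have h : (dzb j fun y => c * f y) =ᶠ[𝓝 z] fun y => c • dzb j f y := by
    filter_upwards [hf.eventually (by simp)] with y h1
    exact dzb_const_smul c (h1.differentiableAt (by norm_num)) j
  rw [ddz_apply, dz_congr h, dz_const_smul c (differentiableAt_dzb hf j)]
  rfl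

theorem ddz_sum {ι : Type*} (s : Finset ι) {f : ι → C2 → ℂ} {z : C2}
    (hf : ∀ i ∈ s, ContDiffAt ℝ 2 (f i) z) :
    ddz (fun y => ∑ i ∈ s, f i y) z = ∑ i ∈ s, ddz (f i) z := by
  classical
  induction s using Finset.induction_on with
  | empty => simpa using ddz_const 0 z
  | insert a s ha ih =>
    have h1 : ContDiffAt ℝ 2 (f a) z := hf a (by simp)
    have h2 : ∀ i ∈ s, ContDiffAt ℝ 2 (f i) z := fun i hi => hf i (by simp [hi])
    simp only [Finset.sum_insert ha]
    rw [ddz_add h1 (ContDiffAt.sum h2), ih h2]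

/-- for real `u` the matrix `∂∂̄u` is Hermitian -/
theorem ddz_real {u : C2 → ℂ} {z : C2} (hu : ContDiffAt ℝ 2 u z)
    (hr : ∀ᶠ y in 𝓝 z, conj (u y) = u y) (i j : Fin 2) : ddz u z j i = conj (ddz u z i j) := by
  have h1 : (fun y => conj (u y)) =ᶠ[𝓝 z] u := hr
  have h2 : dzb i u =ᶠ[𝓝 z] fun y => conj (dz i u y) := by
    filter_upwards [dzb_congr' h1.symm i, hu.eventually (by simp)] with y h3 h4
    rw [h3]
    exact dzb_conj (h4.differentiableAt (by norm_num)) i
  rw [ddz_apply, ddz_apply, dz_congr h2, dz_conj (differentiableAt_dz hu i),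
    dz_dzb_comm hu i j]

/-- `∂∂̄` of the conjugate of a holomorphic function vanishes -/
theorem ddz_conj_hol {h : C2 → ℂ} {z : C2} (hh : AnalyticAt ℂ h z) :
    ddz (fun y => conj (h y)) z = 0 := by
  ext i j
  have h1 : (dzb j fun y => conj (h y)) =ᶠ[𝓝 z] fun y => conj (dz j h y) := by
    filter_upwards [hh.eventually_analyticAt] with y hy
    exact dzb_conj (hy.differentiableAt.restrictScalars ℝ) j
  have h2 := hol_dz hh j
  rw [ddz_apply, dz_congr h1, dz_conj (h2.differentiableAt.restrictScalars ℝ),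
    dzb_of_hol h2.differentiableAt]
  simp

/-- `∂∂̄` of a holomorphic function vanishes -/
theorem ddz_hol {h : C2 → ℂ} {z : C2} (hh : AnalyticAt ℂ h z) : ddz h z = 0 := by
  ext i j
  have h1 : dzb j h =ᶠ[𝓝 z] fun _ => 0 := by
    filter_upwards [hh.eventually_analyticAt] with y hy
    exact dzb_of_hol hy.differentiableAt j
  rw [ddz_apply, dz_congr h1, dz_const]
  rfl

theorem contDiffAt_of_analyticAt {h : C2 → ℂ} {z : C2} (hh : AnalyticAt ℂ h z)
    {n : WithTop ℕ∞} : ContDiffAt ℝ n h z :=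
  (hh.contDiffAt (n := n)).restrict_scalars ℝ

theorem contDiffAt_log_norm_sq {g : C2 → ℂ} {z : C2} (hg : AnalyticAt ℂ g z) (h0 : g z ≠ 0) :
    ContDiffAt ℝ ∞ (fun y => Real.log (‖g y‖ ^ 2)) z := by
  have hc : ContDiffAt ℝ ∞ g z := contDiffAt_of_analyticAt hg
  exact ContDiffAt.log (hc.norm_sq ℝ) (by positivity)

theorem contDiffAt_ofReal {u : C2 → ℝ} {z : C2} {n : WithTop ℕ∞} (hu : ContDiffAt ℝ n u z) :
    ContDiffAt ℝ n (fun y => (u y : ℂ)) z :=
  Complex.ofRealCLM.contDiff.contDiffAt.comp z hu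

/-- `∂∂̄ log |g|² = 0` off the zeros of the holomorphic function `g` -/
theorem ddz_log_norm_sq {g : C2 → ℂ} {z : C2} (hg : AnalyticAt ℂ g z) (h0 : g z ≠ 0) :
    ddz (fun y => (Real.log (‖g y‖ ^ 2) : ℂ)) z = 0 := by
  have hslit : ∀ᶠ y in 𝓝 z, g y / g z ∈ Complex.slitPlane := by
    have : ContinuousAt (fun y => g y / g z) z := hg.continuousAt.div_const _
    refine this.eventually (Complex.isOpen_slitPlane.mem_nhds ?_)
    simp only [div_self h0]
    exact Complex.one_mem_slitPlane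
  have hdiv : AnalyticAt ℂ (fun y => g y / g z) z := by
    simp only [div_eq_mul_inv]
    exact hg.mul analyticAt_const
  have hL : AnalyticAt ℂ (fun y => Complex.log (g y / g z)) z :=
    hdiv.clog (by simp only [div_self h0]; exact Complex.one_mem_slitPlane)
  have key : (fun y => (Real.log (‖g y‖ ^ 2) : ℂ)) =ᶠ[𝓝 z]
      fun y => (Complex.log (g y / g z) + conj (Complex.log (g y / g z))) +
        (Real.log (‖g z‖ ^ 2) : ℂ) := by
    filter_upwards [hslit] with y hy
    have hy0 : g y ≠ 0 := by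
      rintro h
      simp [h] at hy
    rw [Complex.add_conj, Complex.log_re, norm_div, Real.log_div (norm_ne_zero_iff.2 hy0)
      (norm_ne_zero_iff.2 h0), Real.log_pow, Real.log_pow]
    push_cast
    ring
  have hLc : ContDiffAt ℝ 2 (fun y => Complex.log (g y / g z)) z := contDiffAt_of_analyticAt hL
  have hLc' : ContDiffAt ℝ 2 (fun y => conj (Complex.log (g y / g z))) z :=
    Complex.conjCLE.contDiff.contDiffAt.comp z hLc
  rw [ddz_congr key, ddz_add (hLc.add hLc') contDiffAt_const, ddz_add hLc hLc', ddz_const,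
    ddz_hol hL, ddz_conj_hol hL]
  simp

theorem continuousOn_ddz {u : C2 → ℂ} {U : Set C2} (hU : IsOpen U) (hu : ContDiffOn ℝ 2 u U) :
    ContinuousOn (ddz u) U := by
  refine continuousOn_pi.2 fun i => continuousOn_pi.2 fun j => ?_
  exact (contDiffOn_dz (m := 0) hU (contDiffOn_dzb (m := 1) hU hu (by norm_num) j) (by norm_num)
    i).continuousOn

/-- **Uniqueness of the curvature**, local form: if `|g|² e^{-φ} = |g'|² e^{-φ'}` with `g, g'`
holomorphic, `g` not identically zero near any point, then `∂∂̄φ = ∂∂̄φ'`. -/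
theorem ddz_unique {U : Set C2} (hU : IsOpen U) {g g' : C2 → ℂ}
    {φ φ' : C2 → ℝ} (hg : DifferentiableOn ℂ g U) (hg' : DifferentiableOn ℂ g' U)
    (hφ : ContDiffOn ℝ 2 φ U) (hφ' : ContDiffOn ℝ 2 φ' U)
    (hne : ∀ z ∈ U, ∃ᶠ y in 𝓝 z, g y ≠ 0)
    (heq : ∀ z ∈ U, ‖g z‖ ^ 2 * Real.exp (-φ z) = ‖g' z‖ ^ 2 * Real.exp (-φ' z)) :
    EqOn (ddz fun y => (φ y : ℂ)) (ddz fun y => (φ' y : ℂ)) U := by
  have han : ∀ {h : C2 → ℂ}, DifferentiableOn ℂ h U → ∀ z ∈ U, AnalyticAt ℂ h z :=
    fun hh z hz => P268.analyticAt_of_differentiableOn hU hh hz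
  have h0 : ∀ z ∈ U, g z ≠ 0 → ddz (fun y => (φ y : ℂ)) z = ddz (fun y => (φ' y : ℂ)) z := by
    intro z hz hgz
    have hg0' : g' z ≠ 0 := by
      intro h
      have := heq z hz
      rw [h] at this
      have hpos : 0 < ‖g z‖ ^ 2 * Real.exp (-φ z) := by positivity
      simp only [norm_zero] at this
      linarith [this, hpos]
    have hc := han hg z hz
    have hc' := han hg' z hz
    have hφz := hφ.contDiffAt (hU.mem_nhds hz)
    have hφz' := hφ'.contDiffAt (hU.mem_nhds hz)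
    have key : (fun y => (φ y : ℂ)) =ᶠ[𝓝 z]
        fun y => (φ' y : ℂ) + (Real.log (‖g y‖ ^ 2) : ℂ) - (Real.log (‖g' y‖ ^ 2) : ℂ) := by
      filter_upwards [hU.mem_nhds hz, hc.continuousAt.eventually_ne hgz,
        hc'.continuousAt.eventually_ne hg0'] with y hy h1 h2
      have h3 := congrArg Real.log (heq y hy)
      rw [Real.log_mul (by positivity) (Real.exp_ne_zero _),
        Real.log_mul (by positivity) (Real.exp_ne_zero _), Real.log_exp, Real.log_exp] at h3
      have h4 : φ y = φ' y + Real.log (‖g y‖ ^ 2) - Real.log (‖g' y‖ ^ 2) := by linarith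
      rw [h4]
      push_cast
      ring
    have hl := contDiffAt_ofReal ((contDiffAt_log_norm_sq hc hgz).of_le (m := 2) (WithTop.coe_le_coe.2 le_top))
    have hl' := contDiffAt_ofReal ((contDiffAt_log_norm_sq hc' hg0').of_le (m := 2) (WithTop.coe_le_coe.2 le_top))
    have hp := contDiffAt_ofReal hφz'
    rw [ddz_congr key, ddz_sub (hp.add hl) hl', ddz_add hp hl,
      ddz_log_norm_sq hc hgz, ddz_log_norm_sq hc' hg0']
    simp
  intro z hz
  have hcont := continuousOn_ddz hU (u := fun y => (φ y : ℂ)) (fun y hy =>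
    (contDiffAt_ofReal (hφ.contDiffAt (hU.mem_nhds hy))).contDiffWithinAt)
  have hcont' := continuousOn_ddz hU (u := fun y => (φ' y : ℂ)) (fun y hy =>
    (contDiffAt_ofReal (hφ'.contDiffAt (hU.mem_nhds hy))).contDiffWithinAt)
  by_contra hcon
  have hev : ∀ᶠ y in 𝓝 z, ddz (fun y => (φ y : ℂ)) y ≠ ddz (fun y => (φ' y : ℂ)) y := by
    have h1 := hcont.continuousAt (hU.mem_nhds hz)
    have h2 := hcont'.continuousAt (hU.mem_nhds hz)
    exact (h1.prodMk h2).eventually ((isOpen_ne_fun continuous_fst continuous_snd).mem_nhds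
      (show (ddz (fun y => (φ y : ℂ)) z, ddz (fun y => (φ' y : ℂ)) z) ∈
        {p : Matrix (Fin 2) (Fin 2) ℂ × Matrix (Fin 2) (Fin 2) ℂ | p.1 ≠ p.2} from hcon))
  obtain ⟨y, hy1, hy2, hy3⟩ := ((hne z hz).and_eventually (hev.and (hU.mem_nhds hz))).exists
  exact hy2 (h0 y hy3 hy1)

/-- chain rule for `∂∂̄` under a holomorphic map -/
theorem ddz_comp {u : C2 → ℂ} {f : C2 → C2} {z : C2} (hu : ContDiffAt ℝ 2 u (f z))
    (hf : AnalyticAt ℂ f z) (i j : Fin 2) :
    ddz (fun y => u (f y)) z i j =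
      ∑ p, ∑ q, (dz i (fun y => f y p) z * conj (dz j (fun y => f y q) z)) * ddz u (f z) p q := by
  have hfd : ∀ᶠ y in 𝓝 z, AnalyticAt ℂ f y := hf.eventually_analyticAt
  have h1 : (dzb j fun y => u (f y)) =ᶠ[𝓝 z]
      fun y => ∑ q, conj (dz j (fun w => f w q) y) • dzb q u (f y) := by
    filter_upwards [hfd, hf.continuousAt.eventually (hu.eventually (by simp))] with y h2 h3
    exact dzb_comp (h3.differentiableAt (by norm_num)) h2.differentiableAt j
  have hfp : ∀ q, AnalyticAt ℂ (fun w => f w q) z := fun q =>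
    ((ContinuousLinearMap.proj (R := ℂ) (φ := fun _ : Fin 2 => ℂ) q).analyticAt _).comp hf
  have hdzq : ∀ q, AnalyticAt ℂ (dz j fun w => f w q) z := fun q => hol_dz (hfp q) j
  have hfR : DifferentiableAt ℝ f z := hf.differentiableAt.restrictScalars ℝ
  have hd1 : ∀ q, DifferentiableAt ℝ (fun y => conj (dz j (fun w => f w q) y)) z := fun q =>
    differentiableAt_conj ((hdzq q).differentiableAt.restrictScalars ℝ)
  have hd2 : ∀ q, DifferentiableAt ℝ (fun y => dzb q u (f y)) z := fun q =>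
    DifferentiableAt.comp (g := dzb q u) z (differentiableAt_dzb hu q) hfR
  rw [ddz_apply, dz_congr h1]
  have h4 := dz_sum (Finset.univ : Finset (Fin 2))
    (f := fun q y => conj (dz j (fun w => f w q) y) • dzb q u (f y)) (z := z)
    (fun q _ => (hd1 q).smul (hd2 q)) i
  rw [h4, Finset.sum_comm]
  refine Finset.sum_congr rfl fun q _ => ?_
  rw [dz_smul (hd1 q) (hd2 q), dz_conj ((hdzq q).differentiableAt.restrictScalars ℝ),
    dzb_of_hol (hdzq q).differentiableAt, dz_comp (differentiableAt_dzb hu q) hf.differentiableAt]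
  simp only [map_zero, smul_eq_mul, Finset.mul_sum, ddz_apply, zero_mul, add_zero]
  refine Finset.sum_congr rfl fun p _ => ?_
  ring

end Vale.Agent.P267.H332
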