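import Vale.Agent.P267.H399.Calc
import Vale.Agent.P267.H332.Pair.Loc
import Vale.Agent.P267.H757.NF5

/-!
# P267: the curvature form of a norm function (package D-PAIR)

A norm function `N` on a complex surface is locally `|g|² e^{-φ}`, `g` holomorphic, not locally zero,
`φ` real smooth. Its curvature is the `(1,1)`-form `curvN N = ∂∂̄φ`.
-/

open scoped Manifold ContDiff ComplexConjugate Matrix
open MeasureTheory Set Filter Topology

set_option linter.unusedSectionVars false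

noncomputable section

namespace Vale.Agent.P267.H332

open Vale.Agent.P267.FL Vale.Agent.P267.H757

variable {X : Type*} [TopologicalSpace X] [ChartedSpace C2 X]

section real

variable [IsManifold 𝓘(ℂ, C2) ω X]

theorem differentiableOn_chart {e : Ch X} (he : e ∈ atlas C2 X) {g : X → ℂ} {U : Set X}
    (hg : MDifferentiableOn 𝓘(ℂ, C2) 𝓘(ℂ) g U) :
    DifferentiableOn ℂ (fun z => g (e.symm z)) (e.target ∩ e.symm ⁻¹' U) := by
  have h1 : MDifferentiableOn 𝓘(ℂ, C2) 𝓘(ℂ, C2) e.symm e.target := mdifferentiableOn_atlas_symm he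
  have h2 : MDifferentiableOn 𝓘(ℂ, C2) 𝓘(ℂ) (g ∘ e.symm) (e.target ∩ e.symm ⁻¹' U) :=
    hg.comp (h1.mono inter_subset_left) (fun z hz => hz.2)
  exact mdifferentiableOn_iff_differentiableOn.1 h2

theorem contDiffOn_chart {e : Ch X} (he : e ∈ atlas C2 X) {φ : X → ℝ} {U : Set X}
    {n : WithTop ℕ∞} (hφ : ContMDiffOn 𝓘(ℝ, C2) 𝓘(ℝ) n φ U) :
    ContDiffOn ℝ n (fun z => φ (e.symm z)) (e.target ∩ e.symm ⁻¹' U) := by
  have := H757.isManifold_real (E := C2) (M := X) n
  have h1 : ContMDiffOn 𝓘(ℝ, C2) 𝓘(ℝ, C2) n e.symm e.target :=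
    contMDiffOn_symm_of_mem_maximalAtlas (IsManifold.subset_maximalAtlas he)
  have h2 : ContMDiffOn 𝓘(ℝ, C2) 𝓘(ℝ) n (φ ∘ e.symm) (e.target ∩ e.symm ⁻¹' U) :=
    hφ.comp (h1.mono inter_subset_left) (fun z hz => hz.2)
  exact contMDiffOn_iff_contDiffOn.1 h2

theorem lr_isOpen {N : X → ℝ} {U : Set X} {g : X → ℂ} {φ : X → ℝ} (h : LocRep C2 N U g φ)
    (e : Ch X) : IsOpen (e.target ∩ e.symm ⁻¹' U) := e.symm.isOpen_inter_preimage h.isOpen

theorem lr_freq {N : X → ℝ} {U : Set X} {g : X → ℂ} {φ : X → ℝ} (h : LocRep C2 N U g φ)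
    {e : Ch X} {z : C2} (hz : z ∈ e.target ∩ e.symm ⁻¹' U) : ∃ᶠ y in 𝓝 z, g (e.symm y) ≠ 0 := by
  rw [frequently_iff]
  intro V hV
  obtain ⟨W, hWV, hWo, hzW⟩ := mem_nhds_iff.1 hV
  have hWo' : IsOpen (e.source ∩ e ⁻¹' (W ∩ (e.target ∩ e.symm ⁻¹' U))) :=
    e.isOpen_inter_preimage (hWo.inter (lr_isOpen h e))
  have hsub : e.source ∩ e ⁻¹' (W ∩ (e.target ∩ e.symm ⁻¹' U)) ⊆ U := by
    rintro x ⟨hx1, -, -, hx2⟩
    simpa [e.left_inv hx1] using hx2
  obtain ⟨x, ⟨hx1, hx2, hx3⟩, hgx⟩ := h.nz _ hWo' hsub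
    ⟨e.symm z, e.map_target hz.1, by
      rw [mem_preimage, e.right_inv hz.1]
      exact ⟨hzW, hz⟩⟩
  exact ⟨e x, hWV hx2, by rwa [e.left_inv hx1]⟩

/-- uniqueness of the curvature in a chart -/
theorem lr_unique {N : X → ℝ} {U U' : Set X} {g g' : X → ℂ} {φ φ' : X → ℝ}
    (h : LocRep C2 N U g φ) (h' : LocRep C2 N U' g' φ') {e : Ch X} (he : e ∈ atlas C2 X) {z : C2}
    (hz : z ∈ e.target) (hU : e.symm z ∈ U) (hU' : e.symm z ∈ U') :
    ddz (fun y => (φ (e.symm y) : ℂ)) z = ddz (fun y => (φ' (e.symm y) : ℂ)) z := by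
  have hV : IsOpen (U ∩ U') := h.isOpen.inter h'.isOpen
  have k := h.mono hV inter_subset_left
  have k' := h'.mono hV inter_subset_right
  refine ddz_unique (lr_isOpen k e) (g := fun y => g (e.symm y)) (g' := fun y => g' (e.symm y))
    (φ := fun y => φ (e.symm y)) (φ' := fun y => φ' (e.symm y))
    (differentiableOn_chart he k.hol) (differentiableOn_chart he k'.hol)
    ((contDiffOn_chart he k.smooth).of_le (WithTop.coe_le_coe.2 le_top))
    ((contDiffOn_chart he k'.smooth).of_le (WithTop.coe_le_coe.2 le_top))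
    (fun y hy => lr_freq k hy) (fun y hy => ?_) ⟨hz, hU, hU'⟩
  have h1 := k.eq (e.symm y) hy.2
  have h2 := k'.eq (e.symm y) hy.2
  rw [← h1, ← h2]

open Classical in
/-- the curvature `∂∂̄φ` of the norm function `N = |g|² e^{-φ}`: coefficient matrix at `x` in the
preferred coordinates at `x` -/
def curvN (N : X → ℝ) (x : X) : Matrix (Fin 2) (Fin 2) ℂ :=
  if h : ∃ φ : X → ℝ, ∃ U g, x ∈ U ∧ LocRep C2 N U g φ then
    ddz (fun y => (h.choose ((chartAt C2 x).symm y) : ℂ)) (chartAt C2 x x) else 0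

theorem curvN_eq {N : X → ℝ} {U : Set X} {g : X → ℂ} {φ : X → ℝ} (h : LocRep C2 N U g φ) {x : X}
    (hx : x ∈ U) :
    curvN N x = ddz (fun y => (φ ((chartAt C2 x).symm y) : ℂ)) (chartAt C2 x x) := by
  have hex : ∃ φ : X → ℝ, ∃ U g, x ∈ U ∧ LocRep C2 N U g φ := ⟨φ, U, g, hx, h⟩
  rw [curvN, dif_pos hex]
  obtain ⟨U', g', hx', h'⟩ := hex.choose_spec
  refine lr_unique h' h (chart_mem_atlas C2 x) (mem_chart_target C2 x) ?_ ?_
  · rwa [(chartAt C2 x).left_inv (mem_chart_source C2 x)]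
  · rwa [(chartAt C2 x).left_inv (mem_chart_source C2 x)]

/-- the curvature in an arbitrary chart -/
theorem loc11_curvN {N : X → ℝ} {U : Set X} {g : X → ℂ} {φ : X → ℝ} (h : LocRep C2 N U g φ)
    {e : Ch X} (he : e ∈ atlas C2 X) {z : C2} (hz : z ∈ e.target) (hzU : e.symm z ∈ U) :
    loc11 e (curvN N) z = ddz (fun y => (φ (e.symm y) : ℂ)) z := by
  obtain ⟨x, hx, rfl⟩ : ∃ x ∈ e.source, e x = z := ⟨e.symm z, e.map_target hz, e.right_inv hz⟩
  rw [e.left_inv hx] at hzU
  set e' := chartAt C2 x with he'd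
  have he' : e' ∈ atlas C2 X := chart_mem_atlas C2 x
  have hx' : x ∈ e'.source := mem_chart_source C2 x
  have hφ : ContDiffAt ℝ 2 (fun y => (φ (e'.symm y) : ℂ)) (e' x) := by
    have h1 := (contDiffOn_chart he' h.smooth).contDiffAt ((lr_isOpen h e').mem_nhds
      (show e' x ∈ _ from ⟨e'.map_source hx', by rwa [mem_preimage, e'.left_inv hx']⟩))
    exact contDiffAt_ofReal (h1.of_le (WithTop.coe_le_coe.2 le_top))
  have hev : (fun y => (φ (e.symm y) : ℂ)) =ᶠ[𝓝 (e x)]
      fun y => (fun w => (φ (e'.symm w) : ℂ)) (e' (e.symm y)) := by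
    filter_upwards [(isOpen_trans e e').mem_nhds (mem_trans hx hx')] with y hy
    simp only [e'.left_inv hy.2]
  have htr := trans_analyticAt he he' hx hx'
  rw [ddz_congr hev]
  ext i j
  rw [ddz_comp (u := fun w => (φ (e'.symm w) : ℂ)) (f := fun y => e' (e.symm y))
    (by simpa only [e.left_inv hx] using hφ) htr]
  simp only [loc11, Matrix.of_apply, smul_eq_mul]
  simp only [e.left_inv hx]
  rw [curvN_eq h hzU]
  rfl

/-- smoothness of the local weight in a chart, complex valued -/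
theorem lr_cda {N : X → ℝ} {U : Set X} {g : X → ℂ} {φ : X → ℝ} (h : LocRep C2 N U g φ)
    {e : Ch X} (he : e ∈ atlas C2 X) {z : C2} (hz : z ∈ e.target) (hzU : e.symm z ∈ U) :
    ContDiffAt ℝ ∞ (fun y => (φ (e.symm y) : ℂ)) z :=
  contDiffAt_ofReal ((contDiffOn_chart he h.smooth).contDiffAt
    ((lr_isOpen h e).mem_nhds ⟨hz, hzU⟩))

theorem contDiffAt_ddz {u : C2 → ℂ} {z : C2} (hu : ContDiffAt ℝ ∞ u z) (i j : Fin 2) :
    ContDiffAt ℝ ∞ (fun y => ddz u y i j) z :=
  contDiffAt_dz (contDiffAt_dzb (m := ∞) hu (by simp) j) (by simp) i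

theorem loc11_curvN_eventually {N : X → ℝ} {U : Set X} {g : X → ℂ} {φ : X → ℝ}
    (h : LocRep C2 N U g φ) {e : Ch X} (he : e ∈ atlas C2 X) {z : C2} (hz : z ∈ e.target)
    (hzU : e.symm z ∈ U) :
    loc11 e (curvN N) =ᶠ[𝓝 z] ddz (fun y => (φ (e.symm y) : ℂ)) := by
  filter_upwards [(lr_isOpen h e).mem_nhds ⟨hz, hzU⟩] with y hy
  exact loc11_curvN h he hy.1 hy.2

theorem reg11_curvN {N : X → ℝ} (hN : IsNormFn C2 N) : Reg11 ∞ (curvN N) := by
  intro e he i j z hz
  obtain ⟨U, g, φ, hU, h⟩ := hN (e.symm z)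
  have h1 : (fun y => loc11 e (curvN N) y i j) =ᶠ[𝓝 z]
      fun y => ddz (fun y => (φ (e.symm y) : ℂ)) y i j := by
    filter_upwards [loc11_curvN_eventually h he hz hU] with y hy
    rw [hy]
  exact ((contDiffAt_ddz (lr_cda h he hz hU) i j).congr_of_eventuallyEq h1).contDiffWithinAt

/-- locality of the curvature -/
theorem curvN_congr {N N' : X → ℝ} (hN : IsNormFn C2 N) {x : X} (h : N =ᶠ[𝓝 x] N') :
    curvN N x = curvN N' x := by
  obtain ⟨U, g, φ, hU, k⟩ := hN x
  obtain ⟨W, hWV, hWo, hxW⟩ := mem_nhds_iff.1 h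
  have k1 : LocRep C2 N (U ∩ W) g φ := k.mono (k.isOpen.inter hWo) inter_subset_left
  have k2 : LocRep C2 N' (U ∩ W) g φ :=
    ⟨k1.isOpen, k1.hol, k1.nz, k1.smooth, fun y hy => (show N y = N' y from hWV hy.2).symm.trans (k1.eq y hy)⟩
  rw [curvN_eq k1 (show x ∈ U ∩ W from ⟨hU, hxW⟩), curvN_eq k2 (show x ∈ U ∩ W from ⟨hU, hxW⟩)]

theorem curvN_mul {N N' : X → ℝ} (h : IsNormFn C2 N) (h' : IsNormFn C2 N') (x : X) :
    curvN (fun x => N x * N' x) x = curvN N x + curvN N' x := by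
  obtain ⟨U, g, φ, hU, k⟩ := h x
  obtain ⟨U', g', φ', hU', k'⟩ := h' x
  have hx : (chartAt C2 x).symm (chartAt C2 x x) = x := (chartAt C2 x).left_inv (mem_chart_source C2 x)
  rw [curvN_eq (k.mul k') (show x ∈ U ∩ U' from ⟨hU, hU'⟩), curvN_eq k hU, curvN_eq k' hU']
  have e1 := (lr_cda k (chart_mem_atlas C2 x) (mem_chart_target C2 x) (by rwa [hx])).of_le
    (m := 2) (WithTop.coe_le_coe.2 le_top)
  have e2 := (lr_cda k' (chart_mem_atlas C2 x) (mem_chart_target C2 x) (by rwa [hx])).of_le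
    (m := 2) (WithTop.coe_le_coe.2 le_top)
  rw [← ddz_add e1 e2]
  simp only [Complex.ofReal_add]

/-- the curvature form of a norm function as a two-form (the Chern curvature of the line bundle
with section); `c₁ = [i/2π · cF N]` -/
def cF (N : X → ℝ) : TwoF X := ⟨fun _ => 0, curvN N, fun _ => 0⟩

theorem cF_smooth {N : X → ℝ} (hN : IsNormFn C2 N) : (cF N).Smooth where
  s20 e he := by
    have : loc0 1 e (cF N).f20 = fun _ => 0 := by
      funext z
      simp [loc0, cF]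
    rw [this]
    exact contDiffOn_const
  s11 := reg11_curvN hN
  s02 e he := by
    have : loc2 0 e (cF N).f02 = fun _ => 0 := by
      funext z
      simp [loc2, cF]
    rw [this]
    exact contDiffOn_const

theorem cF_closed {N : X → ℝ} (hN : IsNormFn C2 N) : (cF N).Closed := by
  have hloc0 : ∀ (κ : ℤ) (e : Ch X), loc0 κ e (fun _ : X => (0 : ℂ)) = fun _ => 0 := by
    intro κ e
    funext z
    simp [loc0]
  have hloc2 : ∀ (κ : ℤ) (e : Ch X), loc2 κ e (fun _ : X => (0 : ℂ)) = fun _ => 0 := by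
    intro κ e
    funext z
    simp [loc2]
  refine ⟨fun x j => ?_, fun x i => ?_⟩
  all_goals
    obtain ⟨U, g, φ, hU, h⟩ := hN x
    set e := chartAt C2 x with he
    have heA : e ∈ atlas C2 X := chart_mem_atlas C2 x
    have hx0 : e.symm (e x) = x := e.left_inv (mem_chart_source C2 x)
    have hxU : e.symm (e x) ∈ U := by rwa [hx0]
    have hev := loc11_curvN_eventually h heA (mem_chart_target C2 x) hxU
    have hφ := lr_cda h heA (mem_chart_target C2 x) hxU
    set u : C2 → ℂ := fun y => (φ (e.symm y) : ℂ) with hu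
    have hij : ∀ i j, (fun z => loc11 e (curvN N) z i j) =ᶠ[𝓝 (e x)] fun y => dz i (dzb j u) y := by
      intro i j
      filter_upwards [hev] with y hy
      rw [hy]
      rfl
    have hdz2 : ∀ j, ContDiffAt ℝ 2 (dzb j u) (e x) := fun j =>
      (contDiffAt_dzb (m := ∞) hφ (by simp) j).of_le (WithTop.coe_le_coe.2 le_top)
  · simp only [TwoF.d21, cF, dbar0, ← he]
    rw [hloc0, dzb_const, dz_congr (hij 1 j), dz_congr (hij 0 j), dz_dz_comm (hdz2 j) 0 1]
    simp
  · simp only [TwoF.d12, cF, ← he]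
    rw [hloc2, dz_const, dzb_congr (hij i 1), dzb_congr (hij i 0), ← dz_dzb_comm (hdz2 1) i 0,
      ← dz_dzb_comm (hdz2 0) i 1]
    have hc : dzb 0 (dzb 1 u) =ᶠ[𝓝 (e x)] dzb 1 (dzb 0 u) := by
      filter_upwards [(hφ.of_le (m := 2) (WithTop.coe_le_coe.2 le_top)).eventually (by simp)]
        with y hy
      exact dzb_dzb_comm hy 0 1
    rw [dz_congr hc]
    simp

theorem cF_imag {N : X → ℝ} (hN : IsNormFn C2 N) (x : X) (i j : Fin 2) :
    curvN N x j i = conj (curvN N x i j) := by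
  obtain ⟨U, g, φ, hU, h⟩ := hN x
  have hx0 : (chartAt C2 x).symm (chartAt C2 x x) = x :=
    (chartAt C2 x).left_inv (mem_chart_source C2 x)
  rw [curvN_eq h hU]
  exact ddz_real ((lr_cda h (chart_mem_atlas C2 x) (mem_chart_target C2 x)
    (by rwa [hx0])).of_le (WithTop.coe_le_coe.2 le_top)) (Eventually.of_forall fun y => by simp) i j

/-! ### relation with `FL.ddb` -/

theorem loc0_zero' (e : Ch X) (u : X → ℂ) : loc0 0 e u = fun z => u (e.symm z) := by
  funext z
  simp [loc0]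

/-- `∂∂̄u` in the preferred coordinates -/
theorem ddb_eq {u : X → ℂ} {x : X}
    (hu : ContDiffAt ℝ 2 (fun y => u ((chartAt C2 x).symm y)) (chartAt C2 x x)) :
    ddb u x = ddz (fun y => u ((chartAt C2 x).symm y)) (chartAt C2 x x) := by
  ext i j
  simp only [ddb, del1, Matrix.of_apply, ddz_apply]
  refine dz_congr ?_ i
  filter_upwards [(chartAt C2 x).open_target.mem_nhds (mem_chart_target C2 x),
    hu.eventually (by simp)] with y hy h2
  rw [loc1_dbar0 (chart_mem_atlas C2 x) hy (by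
    rw [loc0_zero']
    exact h2.differentiableAt (by norm_num)), loc0_zero']

/-- the curvature of a norm function is `∂∂̄` of any local weight -/
theorem curvN_eq_ddb {N : X → ℝ} {U : Set X} {g : X → ℂ} {φ : X → ℝ} (h : LocRep C2 N U g φ)
    {x : X} (hx : x ∈ U) : curvN N x = ddb (fun y => (φ y : ℂ)) x := by
  have hx0 : (chartAt C2 x).symm (chartAt C2 x x) = x :=
    (chartAt C2 x).left_inv (mem_chart_source C2 x)
  rw [curvN_eq h hx, ddb_eq]
  exact (lr_cda h (chart_mem_atlas C2 x) (mem_chart_target C2 x) (by rwa [hx0])).of_le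
    (WithTop.coe_le_coe.2 le_top)

/-- `cF N` is the curvature of `N` in the sense of helper417's `IsCurv` -/
theorem cF_spec {N : X → ℝ} (hN : IsNormFn C2 N) (p : X) :
    ∃ (U : Set X) (g : X → ℂ) (φ : X → ℝ), p ∈ U ∧ LocRep C2 N U g φ ∧
      ∀ x ∈ U, (cF N).f11 x = ddb (fun y => (φ y : ℂ)) x := by
  obtain ⟨U, g, φ, hU, h⟩ := hN p
  exact ⟨U, g, φ, hU, h, fun x hx => curvN_eq_ddb h hx⟩

/-- uniqueness: a form which is locally `∂∂̄φ` for local weights of `N` is `cF N` -/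
theorem cF_unique {N : X → ℝ} {F : TwoF X} (h20 : ∀ x, F.f20 x = 0) (h02 : ∀ x, F.f02 x = 0)
    (h : ∀ p, ∃ (U : Set X) (g : X → ℂ) (φ : X → ℝ), p ∈ U ∧ LocRep C2 N U g φ ∧
      ∀ x ∈ U, F.f11 x = ddb (fun y => (φ y : ℂ)) x) : F = cF N := by
  cases F with
  | mk f20 f11 f02 =>
    simp only at h20 h02 h
    have h1 : f20 = fun _ => 0 := funext h20
    have h2 : f02 = fun _ => 0 := funext h02
    have h3 : f11 = curvN N := by
      funext x
      obtain ⟨U, g, φ, hU, k, h4⟩ := h x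
      rw [h4 x hU, curvN_eq_ddb k hU]
    rw [h1, h2, h3]
    rfl

theorem cF_mul {N N' : X → ℝ} (h : IsNormFn C2 N) (h' : IsNormFn C2 N') (x : X) :
    (cF fun x => N x * N' x).f11 x = (cF N).f11 x + (cF N').f11 x := curvN_mul h h' x

/-- where `N > 0`: `curvN N = -∂∂̄ log N` -/
theorem curvN_of_pos {N : X → ℝ} (hN : IsNormFn C2 N) {x : X} (hx : 0 < N x) :
    curvN N x = -ddz (fun y => (Real.log (N ((chartAt C2 x).symm y)) : ℂ)) (chartAt C2 x x) := by
  have hopen : IsOpen {x | 0 < N x} := isOpen_lt continuous_const hN.continuous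
  have hsm : ContMDiffOn 𝓘(ℝ, C2) 𝓘(ℝ) ∞ (fun y => -Real.log (N y)) {x | 0 < N x} := by
    have h1 : ContMDiffOn 𝓘(ℝ, C2) 𝓘(ℝ) ∞ (Real.log ∘ N) {x | 0 < N x} := by
      have h2 : ContMDiffOn 𝓘(ℝ) 𝓘(ℝ) ∞ Real.log {x : ℝ | x ≠ 0} :=
        ContDiffOn.contMDiffOn fun x hx => (Real.contDiffAt_log.2 hx).contDiffWithinAt
      exact h2.comp hN.smooth.contMDiffOn fun x hx => (ne_of_gt hx)
    exact h1.neg
  have hrep : LocRep C2 N {x | 0 < N x} (fun _ => 1) (fun y => -Real.log (N y)) := by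
    refine ⟨hopen, mdifferentiableOn_const, fun V _ _ hne => ⟨hne.some, hne.some_mem, one_ne_zero⟩,
      hsm, fun y hy => ?_⟩
    simp [Real.exp_log hy]
  rw [curvN_eq hrep hx]
  simp only [Complex.ofReal_neg]
  exact ddz_neg

/-- pull-back of the curvature under a chart compatible map (e.g. a covering with pulled back
charts, or a deck transformation): no Jacobians -/
theorem curvN_comp {Y : Type*} [TopologicalSpace Y] [ChartedSpace C2 Y] [IsManifold 𝓘(ℂ, C2) ω Y]
    {N : X → ℝ} (hN : IsNormFn C2 N) {q : Y → X} (hN' : IsNormFn C2 fun y => N (q y)) {y : Y}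
    (hq : ContinuousAt q y)
    (hc : (fun w => chartAt C2 (q y) (q w)) =ᶠ[𝓝 y] chartAt C2 y) :
    curvN (fun w => N (q w)) y = curvN N (q y) := by
  obtain ⟨U, g, φ, hU, h⟩ := hN (q y)
  obtain ⟨U', g', φ', hU', h'⟩ := hN' y
  set e := chartAt C2 y with he
  set e' := chartAt C2 (q y) with he'
  have heA : e ∈ atlas C2 Y := chart_mem_atlas C2 y
  have heA' : e' ∈ atlas C2 X := chart_mem_atlas C2 (q y)
  -- near `e y`: `q (e.symm z) = e'.symm z`
  have hey : e.symm (e y) = y := e.left_inv (mem_chart_source C2 y)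
  have heq : e y = e' (q y) := (hc.self_of_nhds).symm
  have hcont : ContinuousAt e.symm (e y) :=
    e.continuousAt_symm (mem_chart_target C2 y)
  have hqz : (fun z => q (e.symm z)) =ᶠ[𝓝 (e y)] e'.symm := by
    have h1 : ∀ᶠ w in 𝓝 y, e' (q w) = e w ∧ q w ∈ e'.source :=
      hc.and (hq.eventually (e'.open_source.mem_nhds (mem_chart_source C2 (q y))))
    have h2 : ∀ᶠ z in 𝓝 (e y), e' (q (e.symm z)) = e (e.symm z) ∧ q (e.symm z) ∈ e'.source := by
      have : Tendsto e.symm (𝓝 (e y)) (𝓝 y) := by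
        have := hcont.tendsto
        rwa [hey] at this
      exact this.eventually h1
    filter_upwards [h2, e.open_target.mem_nhds (mem_chart_target C2 y)] with z hz hzt
    rw [e.right_inv hzt] at hz
    have h5 := e'.left_inv hz.2
    rw [hz.1] at h5
    exact h5.symm
  -- compare the two representations in coordinates
  have hU'o : IsOpen (e.target ∩ e.symm ⁻¹' U') := lr_isOpen h' e
  have hUo : IsOpen (e'.target ∩ e'.symm ⁻¹' U) := lr_isOpen h e'
  obtain ⟨W, hW, hWo, hyW⟩ := mem_nhds_iff.1 hqz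
  set D : Set C2 := W ∩ ((e.target ∩ e.symm ⁻¹' U') ∩ (e'.target ∩ e'.symm ⁻¹' U)) with hD
  have hDo : IsOpen D := hWo.inter (hU'o.inter hUo)
  have hyD : e y ∈ D := by
    refine ⟨hyW, ⟨mem_chart_target C2 y, by rwa [mem_preimage, hey]⟩, ?_⟩
    rw [heq]
    exact ⟨mem_chart_target C2 (q y), by
      rwa [mem_preimage, e'.left_inv (mem_chart_source C2 (q y))]⟩
  have key := ddz_unique hDo (g := fun z => g' (e.symm z)) (g' := fun z => g (e'.symm z))
    (φ := fun z => φ' (e.symm z)) (φ' := fun z => φ (e'.symm z))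
    ((differentiableOn_chart heA h'.hol).mono fun z hz => hz.2.1)
    ((differentiableOn_chart heA' h.hol).mono fun z hz => hz.2.2)
    (((contDiffOn_chart heA h'.smooth).of_le (WithTop.coe_le_coe.2 le_top)).mono
      fun z hz => hz.2.1)
    (((contDiffOn_chart heA' h.smooth).of_le (WithTop.coe_le_coe.2 le_top)).mono
      fun z hz => hz.2.2)
    (fun z hz => lr_freq h' hz.2.1) (fun z hz => by
      have h1 := h'.eq (e.symm z) hz.2.1.2
      have h2 := h.eq (e'.symm z) hz.2.2.2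
      have h3 : q (e.symm z) = e'.symm z := hW hz.1
      rw [← h1, ← h2, h3]) hyD
  rw [curvN_eq h' hU', curvN_eq h hU]
  simp only [← he, ← he']
  rw [key, heq]

end real

end Vale.Agent.P267.H332
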