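import Vale.Agent.P267.H332.Pair.Pair
import Vale.Agent.P267.H877.Trans

/-!
# P267: pull-back of two-forms and norm functions under chart maps (coverings, deck maps)
-/

open scoped Manifold ContDiff ComplexConjugate Matrix
open MeasureTheory Set Filter Topology

set_option linter.unusedSectionVars false

noncomputable section

namespace Vale.Agent.P267.H332

open Vale.Agent.P267.FL Vale.Agent.P267.H757 Vale.Agent.P267.XT

variable {X : Type*} [TopologicalSpace X] [ChartedSpace C2 X] [IsManifold 𝓘(ℂ, C2) ω X]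
variable {Y : Type*} [TopologicalSpace Y] [ChartedSpace C2 Y] [IsManifold 𝓘(ℂ, C2) ω Y]

/-- pull-back of a two-form under a chart map -/
def pb2 (g : Y → X) (η : TwoF X) : TwoF Y :=
  ⟨fun y => η.f20 (g y), fun y => η.f11 (g y), fun y => η.f02 (g y)⟩

/-- components of a `(1,1)`-form in two charts -/
theorem loc11_change {e e' : Ch X} (he : e ∈ atlas C2 X) (he' : e' ∈ atlas C2 X) {x : X}
    (hx : x ∈ e.source) (hx' : x ∈ e'.source) (c : X → Matrix (Fin 2) (Fin 2) ℂ) (i j : Fin 2) :
    loc11 e c (e x) i j = ∑ p, ∑ q, (jacM e e' x p i * conj (jacM e e' x q j)) *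
      loc11 e' c (e' x) p q := by
  have h1 : jac e x = jac e' x * jacM e e' x := jac_eq he he' hx hx'
  simp only [loc11, Matrix.of_apply, e.left_inv hx, e'.left_inv hx', h1, Matrix.mul_apply,
    Fin.sum_univ_two, smul_eq_mul, map_add, map_mul]
  ring

theorem loc11_contDiffAt_change {n : WithTop ℕ∞} {e e' : Ch X} (he : e ∈ atlas C2 X)
    (he' : e' ∈ atlas C2 X) {x : X} (hx : x ∈ e.source) (hx' : x ∈ e'.source)
    {c : X → Matrix (Fin 2) (Fin 2) ℂ}
    (h : ∀ i j, ContDiffAt ℝ n (fun z => loc11 e' c z i j) (e' x)) (i j : Fin 2) :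
    ContDiffAt ℝ n (fun z => loc11 e c z i j) (e x) := by
  have h1 : (fun z => loc11 e c z i j) =ᶠ[𝓝 (e x)] fun z => ∑ p, ∑ q,
      (jacM e e' (e.symm z) p i * conj (jacM e e' (e.symm z) q j)) *
        loc11 e' c (e' (e.symm z)) p q := by
    filter_upwards [(isOpen_trans e e').mem_nhds (mem_trans hx hx')] with z hz
    have := loc11_change he he' (e.map_target hz.1) hz.2 c i j
    rwa [e.right_inv hz.1] at this
  refine ContDiffAt.congr_of_eventuallyEq ?_ h1
  have h3 : ContDiffAt ℝ n (fun z => e' (e.symm z)) (e x) :=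
    ((trans_analyticAt he he' hx hx').contDiffAt (n := n)).restrict_scalars ℝ
  have h4 : ∀ p i, ContDiffAt ℝ n (fun z => jacM e e' (e.symm z) p i) (e x) := fun p i =>
    ((jacM_analyticAt he he' hx hx' p i).contDiffAt (n := n)).restrict_scalars ℝ
  have h5 : ∀ p i, ContDiffAt ℝ n (fun z => conj (jacM e e' (e.symm z) p i)) (e x) := fun p i =>
    (Complex.conjCLE.contDiff.contDiffAt).comp (e x) (h4 p i)
  refine ContDiffAt.sum fun p _ => ContDiffAt.sum fun q _ => ?_
  refine ((h4 p i).mul (h5 q j)).mul (ContDiffAt.comp (g := fun w => loc11 e' c w p q) (e x) ?_ h3)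
  simpa only [e.left_inv hx] using h p q

theorem reg11_iff {n : WithTop ℕ∞} {c : X → Matrix (Fin 2) (Fin 2) ℂ} :
    Reg11 n c ↔ ∀ x i j, ContDiffAt ℝ n (fun z => loc11 (chartAt C2 x) c z i j)
      (chartAt C2 x x) := by
  refine ⟨fun h x i j => (h _ (chart_mem_atlas C2 x) i j).contDiffAt
    ((chartAt C2 x).open_target.mem_nhds (mem_chart_target C2 x)), fun h e he i j z hz => ?_⟩
  refine ContDiffAt.contDiffWithinAt ?_
  have := loc11_contDiffAt_change he (chart_mem_atlas C2 (e.symm z)) (e.map_target hz)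
    (mem_chart_source C2 (e.symm z)) (h (e.symm z)) i j
  rwa [e.right_inv hz] at this

variable {g : Y → X}

theorem reg11_comp (hg : ChartMap g) {n : WithTop ℕ∞} {c : X → Matrix (Fin 2) (Fin 2) ℂ}
    (hc : Reg11 n c) : Reg11 n fun y => c (g y) := by
  rw [reg11_iff] at hc ⊢
  intro y i j
  have h := hc (g y) i j
  rw [hg.apply_eq] at h
  refine h.congr_of_eventuallyEq ?_
  filter_upwards [hg.loc11_germ c y] with z hz
  rw [hz]

theorem pb2_smooth (hg : ChartMap g) {η : TwoF X} (hη : η.Smooth) : (pb2 g η).Smooth where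
  s20 := hg.reg0_comp hη.s20
  s11 := reg11_comp hg hη.s11
  s02 := hg.reg2_comp hη.s02

theorem pb2_closed (hg : ChartMap g) {η : TwoF X} (hη : η.Closed) : (pb2 g η).Closed := by
  have h11 : ∀ y i j, (fun z => loc11 (chartAt C2 y) (pb2 g η).f11 z i j) =ᶠ[𝓝 (chartAt C2 y y)]
      fun z => loc11 (chartAt C2 (g y)) η.f11 z i j := by
    intro y i j
    filter_upwards [hg.loc11_germ η.f11 y] with z hz
    exact (congrFun (congrFun hz i) j).symm
  refine ⟨fun y j => ?_, fun y i => ?_⟩
  · have h := hη.1 (g y) j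
    simp only [TwoF.d21] at h ⊢
    have h1 : dbar0 1 (pb2 g η).f20 y j = dbar0 1 η.f20 (g y) j :=
      congrFun (hg.dbar0_comp 1 η.f20 y) j
    rw [h1, dz_congr (h11 y 1 j), dz_congr (h11 y 0 j), ← hg.apply_eq]
    exact h
  · have h := hη.2 (g y) i
    simp only [TwoF.d12] at h ⊢
    have h1 : loc2 0 (chartAt C2 y) (pb2 g η).f02 =ᶠ[𝓝 (chartAt C2 y y)]
        loc2 0 (chartAt C2 (g y)) η.f02 := (hg.loc2_germ 0 η.f02 y).symm
    rw [dz_congr h1, dzb_congr (h11 y i 1), dzb_congr (h11 y i 0), ← hg.apply_eq]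
    exact h

theorem pb2_real {η : TwoF X} (hη : η.Real) : (pb2 g η).Real := fun y => hη (g y)

end Vale.Agent.P267.H332
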