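import Vale.Agent.P267.H332.Pair.Deck
import Vale.Agent.P267.H757.NF5

/-!
# P267: chart maps are local biholomorphisms; norm functions and pairings under them
-/

open scoped Manifold ContDiff ComplexConjugate Matrix
open MeasureTheory Set Filter Topology

set_option linter.unusedSectionVars false

noncomputable section

namespace Vale.Agent.P267.H332

open Vale.Agent.P267.FL Vale.Agent.P267.H757 Vale.Agent.P267.XT

variable {X : Type*} [TopologicalSpace X] [ChartedSpace C2 X] [IsManifold 𝓘(ℂ, C2) ω X]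
variable {Y : Type*} [TopologicalSpace Y] [ChartedSpace C2 Y] [IsManifold 𝓘(ℂ, C2) ω Y]

variable {g : Y → X}

/-- chart maps are local biholomorphisms -/
theorem isLocalDiffeomorph_of_chartMap (hg : ChartMap g) :
    IsLocalDiffeomorph 𝓘(ℂ, C2) 𝓘(ℂ, C2) ω g := by
  intro y
  set e := chartAt C2 y with he
  set e' := chartAt C2 (g y) with he'
  have h1 : ∀ᶠ z in 𝓝 (e y), e'.symm z = g (e.symm z) := hg.symm_germ y
  have h2 : ∀ᶠ z in 𝓝 (e y), z ∈ e'.target := by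
    refine e'.open_target.mem_nhds ?_
    rw [← hg.apply_eq y]
    exact mem_chart_target C2 (g y)
  obtain ⟨W, hW, hWo, hyW⟩ := mem_nhds_iff.1 (h1.and h2)
  let ψ : OpenPartialHomeomorph Y X :=
    (e.restrOpen (e.source ∩ e ⁻¹' W) (e.isOpen_inter_preimage hWo)).trans e'.symm
  have hsrc : ∀ w ∈ ψ.source, w ∈ e.source ∧ e w ∈ W := by
    intro w hw
    exact hw.1.2
  have hψ : ∀ w ∈ ψ.source, ψ w = g w := by
    intro w hw
    obtain ⟨h3, h4⟩ := hsrc w hw
    change e'.symm (e w) = g w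
    rw [(hW h4).1, e.left_inv h3]
  have hym : y ∈ ψ.source := by
    refine ⟨⟨mem_chart_source C2 y, mem_chart_source C2 y, hyW⟩, ?_⟩
    exact (hW hyW).2
  refine ⟨⟨ψ.toPartialEquiv, ψ.open_source, ψ.open_target, ?_, ?_⟩, hym, fun w hw => (hψ w hw).symm⟩
  · have h5 : ContMDiffOn 𝓘(ℂ, C2) 𝓘(ℂ, C2) ω e e.source := contMDiffOn_chart
    have h6 : ContMDiffOn 𝓘(ℂ, C2) 𝓘(ℂ, C2) ω e'.symm e'.target := contMDiffOn_chart_symm
    exact h6.comp (h5.mono fun w hw => (hsrc w hw).1) fun w hw => (hW (hsrc w hw).2).2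
  · have h5 : ContMDiffOn 𝓘(ℂ, C2) 𝓘(ℂ, C2) ω e' e'.source := contMDiffOn_chart
    have h6 : ContMDiffOn 𝓘(ℂ, C2) 𝓘(ℂ, C2) ω e.symm e.target := contMDiffOn_chart_symm
    refine h6.comp (h5.mono fun w hw => hw.1) fun w hw => ?_
    exact hw.2.1

theorem isOpenMap_of_chartMap (hg : ChartMap g) : IsOpenMap g :=
  (isLocalDiffeomorph_of_chartMap hg).isOpenMap

/-- norm functions pull back under chart maps -/
theorem isNormFn_comp (hg : ChartMap g) {N : X → ℝ} (hN : IsNormFn C2 N) :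
    IsNormFn C2 fun y => N (g y) :=
  hN.comp_local (isLocalDiffeomorph_of_chartMap hg)

/-- the curvature form of the pull-back -/
theorem cF_comp (hg : ChartMap g) {N : X → ℝ} (hN : IsNormFn C2 N) :
    cF (fun y => N (g y)) = pb2 g (cF N) := by
  ext y
  · rfl
  · simp only [cF, pb2]
    rw [curvN_comp hN (isNormFn_comp hg hN) hg.cont.continuousAt (hg.germ y)]
  · rfl

theorem pb2_wedge (F G : TwoF X) : (pb2 g F).wedge (pb2 g G) = fun y => F.wedge G (g y) := rfl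

theorem supp2_pb2_subset (hg : Continuous g) (η : TwoF X) : supp2 (pb2 g η) ⊆ g ⁻¹' supp2 η := by
  refine closure_minimal ?_ (isClosed_closure.preimage hg)
  intro y hy
  exact subset_closure hy

theorem isCompact_supp2_pb2 (σ : Y ≃ₜ X) {η : TwoF X} (hη : IsCompact (supp2 η)) :
    IsCompact (supp2 (pb2 σ η)) :=
  (σ.isCompact_preimage.2 hη).of_isClosed_subset isClosed_closure
    (supp2_pb2_subset σ.continuous η)

theorem supp2_pb2 (σ : Y ≃ₜ X) (η : TwoF X) : supp2 (pb2 σ η) = σ ⁻¹' supp2 η := by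
  exact (σ.preimage_closure {x | η.f20 x ≠ 0 ∨ η.f11 x ≠ 0 ∨ η.f02 x ≠ 0}).symm

/-- pull-back of closed compactly supported two-forms under a chart-compatible homeomorphism -/
def pbHC (σ : Y ≃ₜ X) (hσ : ChartMap σ) : HC X →ₗ[ℂ] HC Y where
  toFun η := ⟨pb2 σ η.1, pb2_smooth hσ η.2.1, pb2_closed hσ η.2.2.1,
    isCompact_supp2_pb2 σ η.2.2.2⟩
  map_add' _ _ := rfl
  map_smul' _ _ := rfl

/-- pull-back of real closed compactly supported two-forms -/
def pbHR (σ : Y ≃ₜ X) (hσ : ChartMap σ) : HR X →ₗ[ℝ] HR Y where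
  toFun η := ⟨pb2 σ η.1, (pbHC σ hσ ⟨η.1, η.2.1⟩).2, pb2_real η.2.2⟩
  map_add' _ _ := rfl
  map_smul' _ _ := rfl

theorem pbHC_val (σ : Y ≃ₜ X) (hσ : ChartMap σ) (η : HC X) : (pbHC σ hσ η).1 = pb2 σ η.1 := rfl

theorem pbHR_val (σ : Y ≃ₜ X) (hσ : ChartMap σ) (η : HR X) : (pbHR σ hσ η).1 = pb2 σ η.1 := rfl

/-- invariance of the integral under `σ` -/
def IntInv (σ : Y → X) : Prop := ∀ b : X → ℂ, Reg2 ∞ 1 b → HasCompactSupport b →
  intX (fun y => b (σ y)) = intX b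

/-- invariance of the pairing under chart-compatible homeomorphisms -/
theorem pairC_pb (hX : IntAx X) (hY : IntAx Y) (σ : Y ≃ₜ X) (hσ : ChartMap σ) (hi : IntInv σ)
    {N : X → ℝ} (hN : IsNormFn C2 N) (η : HC X) :
    pairC hY (isNormFn_comp hσ hN) (pbHC σ hσ η) = pairC hX hN η := by
  simp only [pairC_apply, pbHC_val, cF_comp hσ hN, pb2_wedge]
  exact hi _ (reg2_wedge (cF_smooth hN) η.2.1) (hasCompactSupport_wedge _ η.2.2.2)

theorem pairR_pb (hX : IntAx X) (hY : IntAx Y) (σ : Y ≃ₜ X) (hσ : ChartMap σ) (hi : IntInv σ)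
    {N : X → ℝ} (hN : IsNormFn C2 N) (η : HR X) :
    pairR hY (isNormFn_comp hσ hN) (pbHR σ hσ η) = pairR hX hN η := by
  change (_ * pairC hY _ (pbHC σ hσ ⟨η.1, η.2.1⟩)).re = (_ * pairC hX hN ⟨η.1, η.2.1⟩).re
  rw [pairC_pb hX hY σ hσ hi hN]

end Vale.Agent.P267.H332
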