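import Vale.Agent.P267.H332.Pair.Pair
import Vale.Agent.P267.H928.Int.FLWedge

/-!
# P267: the facts on the integral used in the pairing of closed forms with norm functions
-/

open scoped Manifold ContDiff ComplexConjugate Matrix
open MeasureTheory Set Filter Topology

set_option linter.unusedSectionVars false

noncomputable section

namespace Vale.Agent.P267.H332

open Vale.Agent.P267.FL Vale.Agent.P267.H757

variable {X : Type*} [TopologicalSpace X] [ChartedSpace C2 X] [IsManifold 𝓘(ℂ, C2) ω X]
  [T2Space X] [SigmaCompactSpace X]

theorem stokesD : StokesD X := by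
  intro A η hA hc hη hcl
  refine intX_dA_wedge hA.c1 hη.c1 hcl hc fun x hx => Or.inl ?_
  have := fun h => hx (subset_closure h)
  simpa [not_or] using this

theorem integrableX_of_smooth {b : X → ℂ} (h : Reg2 ∞ 1 b) (hc : HasCompactSupport b) :
    IntegrableX b := by
  refine integrableX_of_reg (fun e he => ?_) hc
  exact (h e he).of_le (by simp)

theorem intAx : IntAx X where
  add b b' h h' hc hc' := by
    have i1 := integrableX_of_smooth h hc
    have i2 := integrableX_of_smooth h' hc'
    have h3 : HasCompactSupport (b + b') := hc.add hc'
    rw [show (fun x => b x + b' x) = b + b' from rfl, intX_eq_intV (i1.add i2) h3,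
      intX_eq_intV i1 hc, intX_eq_intV i2 hc', intV_add i1 i2]
  smul c b h hc := by
    have i1 := integrableX_of_smooth h hc
    have h3 : HasCompactSupport (c • b) := hc.mono' (by
      intro x hx
      apply subset_closure
      intro h0
      apply hx
      simp [h0])
    rw [show (fun x => c * b x) = c • b from rfl, intX_eq_intV (i1.smul c) h3,
      intX_eq_intV i1 hc, intV_smul]
    rfl
  stokes := stokesD

end Vale.Agent.P267.H332
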