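import Mathlib.Analysis.Calculus.DifferentialForm.Basic
import Vale.Agent.P268.Hol

/-!
# P267: the Levi form `i∂∂̄φ` as a real alternating 2-form on open sets of a complex normed space
-/

open scoped ContDiff Topology
open Filter Set

noncomputable section

namespace Vale.Agent.P267.H332

variable {E F : Type*} [NormedAddCommGroup E] [NormedSpace ℂ E]
  [NormedAddCommGroup F] [NormedSpace ℂ F]

/-- multiplication by `i` as a real-linear map -/
def Ji (E : Type*) [NormedAddCommGroup E] [NormedSpace ℂ E] : E →L[ℝ] E :=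
  (Complex.I • ContinuousLinearMap.id ℂ E).restrictScalars ℝ

@[simp] theorem Ji_apply (v : E) : Ji E v = Complex.I • v := rfl

/-- the operator `L ↦ -(1/2) L ∘ i` from covectors to alternating 1-forms -/
def dcOp (E : Type*) [NormedAddCommGroup E] [NormedSpace ℂ E] :
    (E →L[ℝ] ℝ) →L[ℝ] (E [⋀^Fin 1]→L[ℝ] ℝ) :=
  (-(1 / 2 : ℝ)) • ((ContinuousAlternatingMap.ofSubsingletonLIE (0 : Fin 1)
    : (E →L[ℝ] ℝ) ≃ₗᵢ[ℝ] E [⋀^Fin 1]→L[ℝ] ℝ).toContinuousLinearEquiv.toContinuousLinearMap).comp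
      ((ContinuousLinearMap.compL ℝ E E ℝ).flip (Ji E))

theorem dcOp_apply (L : E →L[ℝ] ℝ) (v : Fin 1 → E) :
    dcOp E L v = -(1 / 2) * L (Complex.I • v 0) := rfl

/-- the 1-form `(1/2) d^c φ = -(1/2) dφ ∘ i` -/
def dcf (φ : E → ℝ) (z : E) : E [⋀^Fin 1]→L[ℝ] ℝ := dcOp E (fderiv ℝ φ z)

theorem dcf_apply (φ : E → ℝ) (z : E) (v : Fin 1 → E) :
    dcf φ z v = -(1 / 2) * fderiv ℝ φ z (Complex.I • v 0) := dcOp_apply _ _

/-- the 2-form `i∂∂̄φ = d ((1/2) d^c φ)` -/
def levi (φ : E → ℝ) (z : E) : E [⋀^Fin 2]→L[ℝ] ℝ := extDeriv (dcf φ) z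

theorem contDiffOn_dcf {n m : WithTop ℕ∞} {φ : E → ℝ} {U : Set E} (hU : IsOpen U)
    (hφ : ContDiffOn ℝ n φ U) (hmn : m + 1 ≤ n) : ContDiffOn ℝ m (dcf φ) U :=
  (dcOp E).contDiff.comp_contDiffOn (hφ.fderiv_of_isOpen hU hmn)

theorem contDiffAt_dcf {n m : WithTop ℕ∞} {φ : E → ℝ} {z : E}
    (hφ : ContDiffAt ℝ n φ z) (hmn : m + 1 ≤ n) : ContDiffAt ℝ m (dcf φ) z :=
  (dcOp E).contDiff.contDiffAt.comp z (hφ.fderiv_right hmn)

theorem differentiableAt_dcf {φ : E → ℝ} {z : E} (hφ : ContDiffAt ℝ 2 φ z) :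
    DifferentiableAt ℝ (dcf φ) z :=
  (contDiffAt_dcf (m := 1) hφ (by norm_num)).differentiableAt (by norm_num)

theorem contDiffOn_extDeriv {k : ℕ} {n m : WithTop ℕ∞} {a : E → E [⋀^Fin k]→L[ℝ] ℝ} {U : Set E}
    (hU : IsOpen U) (hφ : ContDiffOn ℝ n a U) (hmn : m + 1 ≤ n) :
    ContDiffOn ℝ m (extDeriv a) U := by
  have h := (ContinuousAlternatingMap.alternatizeUncurryFinCLM (n := k) ℝ E ℝ).contDiff
    (n := m) |>.comp_contDiffOn (hφ.fderiv_of_isOpen hU hmn)
  exact h

theorem contDiffOn_levi {φ : E → ℝ} {U : Set E} (hU : IsOpen U) (hφ : ContDiffOn ℝ ∞ φ U) :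
    ContDiffOn ℝ ∞ (levi φ) U :=
  contDiffOn_extDeriv hU (contDiffOn_dcf (m := ∞) hU hφ (by simp)) (by simp)

theorem continuousOn_levi {φ : E → ℝ} {U : Set E} (hU : IsOpen U) (hφ : ContDiffOn ℝ 2 φ U) :
    ContinuousOn (levi φ) U :=
  (contDiffOn_extDeriv (m := 0) hU (contDiffOn_dcf (m := 1) hU hφ (by norm_num))
    (by norm_num)).continuousOn

theorem extDeriv_levi {φ : E → ℝ} {z : E} (hφ : ContDiffAt ℝ 3 φ z) : extDeriv (levi φ) z = 0 :=
  extDeriv_extDeriv_apply (r := 2) (contDiffAt_dcf hφ (by norm_num)) (by simp)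

theorem dcf_congr {φ ψ : E → ℝ} {z : E} (h : φ =ᶠ[𝓝 z] ψ) : dcf φ =ᶠ[𝓝 z] dcf ψ := by
  filter_upwards [h.fderiv (𝕜 := ℝ)] with y hy
  simp only [dcf, hy]

theorem levi_congr {φ ψ : E → ℝ} {z : E} (h : φ =ᶠ[𝓝 z] ψ) : levi φ z = levi ψ z :=
  (dcf_congr h).extDeriv_eq

theorem dcf_const (c : ℝ) : dcf (fun _ : E => c) = 0 := by
  funext z
  simp [dcf]

theorem levi_const (c : ℝ) (z : E) : levi (fun _ : E => c) z = 0 := by
  rw [levi, dcf_const, extDeriv, show (0 : E → E [⋀^Fin 1]→L[ℝ] ℝ) = fun _ => 0 from rfl,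
    fderiv_const_apply]
  exact map_zero (ContinuousAlternatingMap.alternatizeUncurryFinCLM ℝ E ℝ)

theorem levi_add {φ ψ : E → ℝ} {z : E} (hφ : ContDiffAt ℝ 2 φ z) (hψ : ContDiffAt ℝ 2 ψ z) :
    levi (fun y => φ y + ψ y) z = levi φ z + levi ψ z := by
  have h : dcf (fun y => φ y + ψ y) =ᶠ[𝓝 z] dcf φ + dcf ψ := by
    filter_upwards [hφ.eventually (by simp), hψ.eventually (by simp)] with y h1 h2
    simp only [dcf, Pi.add_apply]
    rw [fderiv_fun_add (h1.differentiableAt (by norm_num)) (h2.differentiableAt (by norm_num)),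
      map_add]
  rw [levi, h.extDeriv_eq, extDeriv_add (differentiableAt_dcf hφ) (differentiableAt_dcf hψ)]
  rfl

theorem levi_smul (c : ℝ) {φ : E → ℝ} {z : E} (hφ : ContDiffAt ℝ 2 φ z) :
    levi (fun y => c * φ y) z = c • levi φ z := by
  have h : dcf (fun y => c * φ y) =ᶠ[𝓝 z] c • dcf φ := by
    filter_upwards [hφ.eventually (by simp)] with y h1
    simp only [dcf, Pi.smul_apply]
    rw [fderiv_const_mul (h1.differentiableAt (by norm_num)), map_smul]
  rw [levi, h.extDeriv_eq, extDeriv_smul]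
  rfl

theorem levi_neg {φ : E → ℝ} {z : E} (hφ : ContDiffAt ℝ 2 φ z) :
    levi (fun y => -φ y) z = -levi φ z := by
  have := levi_smul (-1) hφ
  simp only [neg_mul, one_mul] at this
  rw [this]
  exact neg_one_smul ℝ (levi φ z)

theorem levi_sub {φ ψ : E → ℝ} {z : E} (hφ : ContDiffAt ℝ 2 φ z) (hψ : ContDiffAt ℝ 2 ψ z) :
    levi (fun y => φ y - ψ y) z = levi φ z - levi ψ z := by
  have := levi_add hφ hψ.neg
  simp only [← sub_eq_add_neg] at this
  rw [this, levi_neg hψ, sub_eq_add_neg]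

theorem levi_sum {ι : Type*} (s : Finset ι) {φ : ι → E → ℝ} {z : E}
    (hφ : ∀ i ∈ s, ContDiffAt ℝ 2 (φ i) z) :
    levi (fun y => ∑ i ∈ s, φ i y) z = ∑ i ∈ s, levi (φ i) z := by
  classical
  induction s using Finset.induction_on with
  | empty => simp [levi_const]
  | insert a s ha ih =>
    have h1 : ContDiffAt ℝ 2 (φ a) z := hφ a (by simp)
    have h2 : ∀ i ∈ s, ContDiffAt ℝ 2 (φ i) z := fun i hi => hφ i (by simp [hi])
    simp only [Finset.sum_insert ha]
    rw [levi_add h1 (ContDiffAt.sum h2), ih h2]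

/-- `(1/2) d^c` commutes with pullbacks under holomorphic maps. -/
theorem dcf_comp {f : E → F} {φ : F → ℝ} {x : E} (hf : DifferentiableAt ℂ f x)
    (hφ : DifferentiableAt ℝ φ (f x)) :
    dcf (fun y => φ (f y)) x = (dcf φ (f x)).compContinuousLinearMap (fderiv ℝ f x) := by
  ext v
  have h1 : fderiv ℝ (fun y => φ (f y)) x = (fderiv ℝ φ (f x)).comp (fderiv ℝ f x) :=
    fderiv_comp x hφ (hf.restrictScalars ℝ)
  have h2 : fderiv ℝ f x (Complex.I • v 0) = Complex.I • fderiv ℝ f x (v 0) := by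
    rw [(hf.hasFDerivAt.restrictScalars ℝ).fderiv]
    simp
  rw [dcf_apply, h1, ContinuousLinearMap.comp_apply, h2]
  simp [dcf_apply]

/-- `i∂∂̄` commutes with pullbacks under holomorphic maps. -/
theorem levi_comp {f : E → F} {φ : F → ℝ} {x : E} (hf : ∀ᶠ y in 𝓝 x, DifferentiableAt ℂ f y)
    (hf2 : ContDiffAt ℝ 2 f x) (hφ : ContDiffAt ℝ 2 φ (f x)) :
    levi (fun y => φ (f y)) x = (levi φ (f x)).compContinuousLinearMap (fderiv ℝ f x) := by
  have h : dcf (fun y => φ (f y)) =ᶠ[𝓝 x]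
      fun y => (dcf φ (f y)).compContinuousLinearMap (fderiv ℝ f y) := by
    filter_upwards [hf, hf2.continuousAt.eventually (hφ.eventually (by simp))] with y h1 h2
    exact dcf_comp h1 (h2.differentiableAt (by norm_num))
  rw [levi, h.extDeriv_eq]
  exact extDeriv_pullback (differentiableAt_dcf hφ) hf2 (by simp)

/-- the real part of a holomorphic function is pluriharmonic -/
theorem levi_re {h : E → ℂ} {x : E} (hf : ∀ᶠ y in 𝓝 x, DifferentiableAt ℂ h y)
    (hf2 : ContDiffAt ℝ 2 h x) : levi (fun y => (h y).re) x = 0 := by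
  have him : ContDiffAt ℝ 2 (fun y => (1 / 2 : ℝ) * (h y).im) x :=
    contDiffAt_const.mul (Complex.imCLM.contDiff.contDiffAt.comp x hf2)
  have key : dcf (fun y => (h y).re) =ᶠ[𝓝 x] extDeriv (fun y =>
      ContinuousAlternatingMap.constOfIsEmpty ℝ E (Fin 0) ((1 / 2 : ℝ) * (h y).im)) := by
    filter_upwards [hf] with y hy
    have hy' : HasFDerivAt h ((fderiv ℂ h y).restrictScalars ℝ) y := hy.hasFDerivAt.restrictScalars ℝ
    have hre : HasFDerivAt (fun y => (h y).re)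
        (Complex.reCLM.comp ((fderiv ℂ h y).restrictScalars ℝ)) y :=
      Complex.reCLM.hasFDerivAt.comp y hy'
    have him' : HasFDerivAt (fun y => (1 / 2 : ℝ) * (h y).im)
        ((1 / 2 : ℝ) • Complex.imCLM.comp ((fderiv ℂ h y).restrictScalars ℝ)) y :=
      (Complex.imCLM.hasFDerivAt.comp y hy').const_mul (1 / 2 : ℝ)
    rw [extDeriv_constOfIsEmpty, him'.fderiv]
    ext v
    rw [dcf_apply, hre.fderiv]
    simp
  rw [levi, key.extDeriv_eq]
  refine extDeriv_extDeriv_apply (r := 2) ?_ (by simp)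
  exact (ContinuousAlternatingMap.constOfIsEmptyLIE ℝ E ℝ (Fin 0)).contDiff.contDiffAt.comp x him

/-- `log |g|²` is pluriharmonic off the zeros of the holomorphic function `g` -/
theorem levi_log_norm_sq {g : E → ℂ} {x : E} (hf : ∀ᶠ y in 𝓝 x, DifferentiableAt ℂ g y)
    (hf2 : ContDiffAt ℝ 2 g x) (h0 : g x ≠ 0) : levi (fun y => Real.log (‖g y‖ ^ 2)) x = 0 := by
  have hslit : ∀ᶠ y in 𝓝 x, g y / g x ∈ Complex.slitPlane := by
    have : ContinuousAt (fun y => g y / g x) x := hf2.continuousAt.div_const _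
    refine this.eventually (Complex.isOpen_slitPlane.mem_nhds ?_)
    simp only [div_self h0]; exact Complex.one_mem_slitPlane
  have hl2 : ContDiffAt ℝ 2 (fun y => Complex.log (g y / g x)) x := by
    have h1 : ContDiffAt ℝ 2 (fun y => g y / g x) x := by
      simp only [div_eq_mul_inv]
      exact hf2.mul contDiffAt_const
    have h2 : ContDiffAt ℂ 2 Complex.log (g x / g x) :=
      Complex.contDiffAt_log (by rw [div_self h0]; exact Complex.one_mem_slitPlane)
    exact (h2.restrict_scalars ℝ).comp x h1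
  have hl1 : ∀ᶠ y in 𝓝 x, DifferentiableAt ℂ (fun y => Complex.log (g y / g x)) y := by
    filter_upwards [hf, hslit] with y h1 h2
    have h3 : DifferentiableAt ℂ (fun y => g y / g x) y := by
      simp only [div_eq_mul_inv]
      exact h1.mul_const _
    exact h3.clog h2
  have key : (fun y => Real.log (‖g y‖ ^ 2)) =ᶠ[𝓝 x]
      fun y => 2 * (Complex.log (g y / g x)).re + Real.log (‖g x‖ ^ 2) := by
    filter_upwards [hslit] with y hy
    have hy0 : g y ≠ 0 := by
      rintro h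
      simp [h] at hy
    rw [Complex.log_re, norm_div, Real.log_div (norm_ne_zero_iff.2 hy0) (norm_ne_zero_iff.2 h0),
      Real.log_pow, Real.log_pow]
    push_cast
    ring
  rw [levi_congr key]
  have hre2 : ContDiffAt ℝ 2 (fun y => (Complex.log (g y / g x)).re) x :=
    Complex.reCLM.contDiff.contDiffAt.comp x hl2
  rw [levi_add (contDiffAt_const.mul hre2) contDiffAt_const, levi_const, levi_smul 2 hre2,
    levi_re hl1 hl2]
  simp

/-- **Uniqueness of the curvature**, local form: if `|g|² e^{-φ} = |g'|² e^{-φ'}` with `g, g'`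
holomorphic, `g` not identically zero on any nonempty open set, then `i∂∂̄φ = i∂∂̄φ'`. -/
theorem levi_unique [FiniteDimensional ℂ E] {U : Set E} (hU : IsOpen U) {g g' : E → ℂ}
    {φ φ' : E → ℝ} (hg : DifferentiableOn ℂ g U) (hg' : DifferentiableOn ℂ g' U)
    (hφ : ContDiffOn ℝ 2 φ U) (hφ' : ContDiffOn ℝ 2 φ' U)
    (hne : ∀ z ∈ U, ∃ᶠ y in 𝓝 z, g y ≠ 0)
    (heq : ∀ z ∈ U, ‖g z‖ ^ 2 * Real.exp (-φ z) = ‖g' z‖ ^ 2 * Real.exp (-φ' z)) :
    EqOn (levi φ) (levi φ') U := by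
  have hcd : ∀ {h : E → ℂ}, DifferentiableOn ℂ h U → ∀ z ∈ U, ContDiffAt ℝ 2 h z := by
    intro h hh z hz
    exact ((P268.contDiffOn_of_differentiableOn hU hh 2).contDiffAt
      (hU.mem_nhds hz)).restrict_scalars ℝ
  have h0 : ∀ z ∈ U, g z ≠ 0 → levi φ z = levi φ' z := by
    intro z hz hgz
    have hg0' : g' z ≠ 0 := by
      intro h
      have := heq z hz
      rw [h] at this
      have hpos : 0 < ‖g z‖ ^ 2 * Real.exp (-φ z) := by positivity
      simp only [norm_zero] at this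
      linarith [this, hpos]
    have hev : ∀ᶠ y in 𝓝 z, DifferentiableAt ℂ g y := by
      filter_upwards [hU.mem_nhds hz] with y hy using hg.differentiableAt (hU.mem_nhds hy)
    have hev' : ∀ᶠ y in 𝓝 z, DifferentiableAt ℂ g' y := by
      filter_upwards [hU.mem_nhds hz] with y hy using hg'.differentiableAt (hU.mem_nhds hy)
    have hc := hcd hg z hz
    have hc' := hcd hg' z hz
    have hφz := hφ.contDiffAt (hU.mem_nhds hz)
    have hφz' := hφ'.contDiffAt (hU.mem_nhds hz)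
    have key : φ =ᶠ[𝓝 z] fun y => φ' y + Real.log (‖g y‖ ^ 2) - Real.log (‖g' y‖ ^ 2) := by
      filter_upwards [hU.mem_nhds hz, hc.continuousAt.eventually_ne hgz,
        hc'.continuousAt.eventually_ne hg0'] with y hy h1 h2
      have h3 := congrArg Real.log (heq y hy)
      rw [Real.log_mul (by positivity) (Real.exp_ne_zero _),
        Real.log_mul (by positivity) (Real.exp_ne_zero _), Real.log_exp, Real.log_exp] at h3
      linarith
    have hl : ContDiffAt ℝ 2 (fun y => Real.log (‖g y‖ ^ 2)) z := by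
      exact ContDiffAt.log (hc.norm_sq ℝ) (by positivity)
    have hl' : ContDiffAt ℝ 2 (fun y => Real.log (‖g' y‖ ^ 2)) z := by
      exact ContDiffAt.log (hc'.norm_sq ℝ) (by positivity)
    rw [levi_congr key, levi_sub (hφz'.add hl) hl', levi_add hφz' hl,
      levi_log_norm_sq hev hc hgz, levi_log_norm_sq hev' hc' hg0']
    simp
  intro z hz
  have hcl : z ∈ closure (U ∩ {y | g y ≠ 0}) := by
    rw [mem_closure_iff_frequently]
    have := (hne z hz).and_eventually (hU.mem_nhds hz)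
    refine this.mono fun y hy => ⟨hy.2, hy.1⟩
  have hcont := continuousOn_levi hU hφ
  have hcont' := continuousOn_levi hU hφ'
  have hsub : (U ∩ {y | g y ≠ 0}) ⊆ {y | levi φ y = levi φ' y} := fun y hy => h0 y hy.1 hy.2
  by_contra hcon
  have hev : ∀ᶠ y in 𝓝 z, levi φ y ≠ levi φ' y := by
    have h1 := hcont.continuousAt (hU.mem_nhds hz)
    have h2 := hcont'.continuousAt (hU.mem_nhds hz)
    have h3 := (h1.prodMk h2).eventually (isOpen_ne_fun continuous_fst continuous_snd |>.mem_nhds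
      (show (levi φ z, levi φ' z) ∈ {p : _ × _ | p.1 ≠ p.2} from hcon))
    exact h3
  obtain ⟨y, hy1, hy2⟩ := ((mem_closure_iff_frequently.1 hcl).and_eventually hev).exists
  exact hy2 (hsub hy1)

end Vale.Agent.P267.H332
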