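import Vale.Agent.P267.H332.Pair.Curv
import Vale.Agent.P267.H857.Alg
import Mathlib.Geometry.Manifold.PartitionOfUnity

/-!
# P267: pairing of closed compactly supported two-forms with norm functions (package D-PAIR)
-/

open scoped Manifold ContDiff ComplexConjugate Matrix
open MeasureTheory Set Filter Topology

set_option linter.unusedSectionVars false

noncomputable section

namespace Vale.Agent.P267.H332

open Vale.Agent.P267.FL Vale.Agent.P267.H757

variable {X : Type*} [TopologicalSpace X] [ChartedSpace C2 X]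

/-- closed support of a two-form -/
def supp2 (η : TwoF X) : Set X := closure {x | η.f20 x ≠ 0 ∨ η.f11 x ≠ 0 ∨ η.f02 x ≠ 0}

/-- closed support of a one-form -/
def supp1 (A : OneF X) : Set X := closure {x | A.f10 x ≠ 0 ∨ A.f01 x ≠ 0}

theorem eq_zero_of_notMem_supp2 {η : TwoF X} {x : X} (hx : x ∉ supp2 η) :
    η.f20 x = 0 ∧ η.f11 x = 0 ∧ η.f02 x = 0 := by
  have := fun h => hx (subset_closure h)
  simpa [not_or] using this

theorem wedge_comm' (F G : TwoF X) : F.wedge G = G.wedge F := by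
  funext x
  simp only [TwoF.wedge]
  ring

theorem contDiffAt_chart_of_contMDiff [IsManifold 𝓘(ℂ, C2) ω X] {u : X → ℝ}
    (hu : ContMDiff 𝓘(ℝ, C2) 𝓘(ℝ) ∞ u) {e : Ch X} (he : e ∈ atlas C2 X) {z : C2}
    (hz : z ∈ e.target) : ContDiffAt ℝ ∞ (fun y => (u (e.symm y) : ℂ)) z := by
  have h := contDiffOn_chart he (hu.contMDiffOn (s := univ))
  exact contDiffAt_ofReal (h.contDiffAt ((e.symm.isOpen_inter_preimage isOpen_univ).mem_nhds
    ⟨hz, trivial⟩))

section prim

variable [IsManifold 𝓘(ℂ, C2) ω X]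

/-- the `(0,1)`-form `∂̄u` of a smooth real function, as a one-form -/
def dbarF (u : X → ℝ) : OneF X := ⟨fun _ => 0, dbar0 0 fun y => (u y : ℂ)⟩

variable {u : X → ℝ}

theorem loc1_dbarF (hu : ContMDiff 𝓘(ℝ, C2) 𝓘(ℝ) ∞ u) {e : Ch X} (he : e ∈ atlas C2 X)
    {z : C2} (hz : z ∈ e.target) (i : Fin 2) :
    loc1 0 e (dbarF u).f01 z i = dzb i (fun y => (u (e.symm y) : ℂ)) z := by
  have h := contDiffAt_chart_of_contMDiff hu he hz
  have h1 := loc1_dbar0 (κ := 0) he hz (s := fun y => (u y : ℂ)) (by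
    rw [loc0_zero']
    exact h.differentiableAt (by simp)) i
  rw [loc0_zero'] at h1
  exact h1

theorem dbarF_smooth (hu : ContMDiff 𝓘(ℝ, C2) 𝓘(ℝ) ∞ u) : (dbarF u).Smooth where
  s10 e he := by
    have : loc10 e (dbarF u).f10 = fun _ => 0 := by
      funext z i
      simp [loc10, dbarF]
    rw [this]
    exact contDiffOn_const
  s01 e he z hz := by
    refine ContDiffAt.contDiffWithinAt ?_
    rw [contDiffAt_pi]
    intro i
    have h := contDiffAt_chart_of_contMDiff hu he hz
    have h1 : (fun y => loc1 0 e (dbarF u).f01 y i) =ᶠ[𝓝 z]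
        dzb i (fun y => (u (e.symm y) : ℂ)) := by
      filter_upwards [e.open_target.mem_nhds hz] with y hy
      exact loc1_dbarF hu he hy i
    exact (contDiffAt_dzb (m := ∞) h (by simp) i).congr_of_eventuallyEq h1

theorem dbarF_d_f20 (x : X) : (dbarF u).d.f20 x = 0 := by
  simp [OneF.d, dbarF, del10, loc10]

theorem dbarF_d_f11 (x : X) : (dbarF u).d.f11 x = ddb (fun y => (u y : ℂ)) x := by
  have h : dbar10 (fun _ : X => (0 : Fin 2 → ℂ)) x = 0 := by
    ext i j
    simp [dbar10, loc10]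
  have h' : (fun _ : X => (0 : Fin 2 → ℂ)) = fun _ _ => 0 := rfl
  simp only [OneF.d, dbarF, Pi.add_apply]
  rw [show (fun _ : X => (0 : Fin 2 → ℂ)) = fun _ => 0 from rfl, h, add_zero]
  rfl

theorem dbarF_d_f02 (hu : ContMDiff 𝓘(ℝ, C2) 𝓘(ℝ) ∞ u) (x : X) : (dbarF u).d.f02 x = 0 := by
  simp only [OneF.d, dbar1]
  set e := chartAt C2 x with he
  have heA : e ∈ atlas C2 X := chart_mem_atlas C2 x
  have hz : e x ∈ e.target := mem_chart_target C2 x
  have h := contDiffAt_chart_of_contMDiff hu heA hz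
  have h1 : ∀ i, (fun y => loc1 0 e (dbarF u).f01 y i) =ᶠ[𝓝 (e x)]
      dzb i (fun y => (u (e.symm y) : ℂ)) := by
    intro i
    filter_upwards [e.open_target.mem_nhds hz] with y hy
    exact loc1_dbarF hu heA hy i
  rw [dzb_congr (h1 1), dzb_congr (h1 0), dzb_dzb_comm (h.of_le (WithTop.coe_le_coe.2 le_top)) 0 1]
  simp

end prim

/-- a smooth cut-off -/
theorem exists_cutoff [IsManifold 𝓘(ℂ, C2) ω X] [T2Space X] [SigmaCompactSpace X] {K W : Set X}
    (hK : IsCompact K) (hW : IsOpen W) (hKW : K ⊆ W) :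
    ∃ (χ : X → ℝ) (K' : Set X), ContMDiff 𝓘(ℝ, C2) 𝓘(ℝ) ∞ χ ∧ IsCompact K' ∧ K' ⊆ W ∧
      (∀ᶠ x in 𝓝ˢ K, χ x = 1) ∧ ∀ x ∉ K', χ x = 0 := by
  have := H757.isManifold_real (E := C2) (M := X) ω
  have : IsManifold 𝓘(ℝ, C2) ∞ X := IsManifold.of_le (n := ω) le_top
  have : LocallyCompactSpace X := ChartedSpace.locallyCompactSpace C2 X
  obtain ⟨K', hK', hKK', hK'W⟩ := exists_compact_between hK hW hKW
  obtain ⟨f, hf1, hf0, -⟩ := exists_contMDiffMap_one_nhds_of_subset_interior (n := ⊤)
    𝓘(ℝ, C2) hK.isClosed hKK'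
  exact ⟨f, K', f.contMDiff, hK', hK'W, hf1, hf0⟩

/-- Stokes' theorem in the form used below. -/
def StokesD (X : Type*) [TopologicalSpace X] [ChartedSpace C2 X] : Prop :=
  ∀ (A : OneF X) (η : TwoF X), A.Smooth → IsCompact (supp1 A) → η.Smooth → η.Closed →
    intX (A.d.wedge η) = 0

/-- A norm function which is positive on the support of the closed compactly supported form `η`:
`cF N ∧ η` is `dA ∧ η` with `A` smooth and compactly supported. -/
theorem exists_primitive [IsManifold 𝓘(ℂ, C2) ω X] [T2Space X] [SigmaCompactSpace X] {N : X → ℝ}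
    (hN : IsNormFn C2 N) {η : TwoF X} (hη : IsCompact (supp2 η)) (hpos : ∀ x ∈ supp2 η, 0 < N x) :
    ∃ A : OneF X, A.Smooth ∧ IsCompact (supp1 A) ∧ (cF N).wedge η = A.d.wedge η := by
  have hopen : IsOpen {x | 0 < N x} := isOpen_lt continuous_const hN.continuous
  obtain ⟨χ, K', hχ, hK', hK'W, hχ1, hχ0⟩ := exists_cutoff hη hopen hpos
  -- the function `-χ log N`
  set u : X → ℝ := fun x => -(χ x * Real.log (N x)) with hu
  have hus : ContMDiff 𝓘(ℝ, C2) 𝓘(ℝ) ∞ u := by
    intro x
    by_cases hx : x ∈ K'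
    · have hlog : ContMDiffAt 𝓘(ℝ, C2) 𝓘(ℝ) ∞ (fun y => Real.log (N y)) x :=
        ContMDiffAt.comp (g := Real.log) x (Real.contDiffAt_log.2 (hK'W hx).ne').contMDiffAt
          hN.smooth.contMDiffAt
      exact (hχ.contMDiffAt.mul hlog).neg
    · have h0 : u =ᶠ[𝓝 x] fun _ => 0 := by
        filter_upwards [hK'.isClosed.isOpen_compl.mem_nhds hx] with y hy
        simp [hu, hχ0 y hy]
      exact contMDiffAt_const.congr_of_eventuallyEq h0
  refine ⟨dbarF u, dbarF_smooth hus, ?_, ?_⟩
  · refine hK'.of_isClosed_subset isClosed_closure (closure_minimal ?_ hK'.isClosed)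
    rintro x (hx | hx)
    · exact absurd rfl hx
    · by_contra hxK
      apply hx
      have h0 : (fun y : X => (u y : ℂ)) =ᶠ[𝓝 x] fun _ => 0 := by
        filter_upwards [hK'.isClosed.isOpen_compl.mem_nhds hxK] with y hy
        simp [hu, hχ0 y hy]
      funext i
      simp only [dbarF, dbar0]
      have h1 : loc0 0 (chartAt C2 x) (fun y : X => (u y : ℂ)) =ᶠ[𝓝 (chartAt C2 x x)]
          fun _ => 0 := by
        rw [loc0_zero']
        have hc : Tendsto (chartAt C2 x).symm (𝓝 (chartAt C2 x x)) (𝓝 x) := by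
          have := (chartAt C2 x).continuousAt_symm (mem_chart_target C2 x)
          rw [ContinuousAt, (chartAt C2 x).left_inv (mem_chart_source C2 x)] at this
          exact this
        exact hc.eventually h0
      rw [dzb_congr h1, dzb_const]
      rfl
  · funext x
    by_cases hx : x ∈ supp2 η
    · have h11 : (dbarF u).d.f11 x = curvN N x := by
        rw [dbarF_d_f11, ddb_eq ((contDiffAt_chart_of_contMDiff hus (chart_mem_atlas C2 x)
          (mem_chart_target C2 x)).of_le (WithTop.coe_le_coe.2 le_top)),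
          curvN_of_pos hN (hpos x hx), ← ddz_neg]
        refine ddz_congr ?_
        have h1 : ∀ᶠ y in 𝓝 x, χ y = 1 := (eventually_nhdsSet_iff_forall.1 hχ1) x hx
        have hc : Tendsto (chartAt C2 x).symm (𝓝 (chartAt C2 x x)) (𝓝 x) := by
          have := (chartAt C2 x).continuousAt_symm (mem_chart_target C2 x)
          rw [ContinuousAt, (chartAt C2 x).left_inv (mem_chart_source C2 x)] at this
          exact this
        filter_upwards [hc.eventually h1] with y hy
        simp only [hu, hy, one_mul, Complex.ofReal_neg]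
      simp only [TwoF.wedge, h11, dbarF_d_f20, dbarF_d_f02 hus, cF]
    · obtain ⟨h1, h2, h3⟩ := eq_zero_of_notMem_supp2 hx
      simp [TwoF.wedge, h1, h2, h3]

/-- **PAIR-ZERO**: if `N > 0` on the support of the closed compactly supported form `η`, then
`∫ c(N) ∧ η = 0`. -/
theorem intX_cF_wedge_eq_zero [IsManifold 𝓘(ℂ, C2) ω X] [T2Space X] [SigmaCompactSpace X]
    (hSt : StokesD X) {N : X → ℝ} (hN : IsNormFn C2 N) {η : TwoF X} (hs : η.Smooth)
    (hcl : η.Closed) (hη : IsCompact (supp2 η)) (hpos : ∀ x ∈ supp2 η, 0 < N x) :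
    intX ((cF N).wedge η) = 0 := by
  obtain ⟨A, hA, hAc, h⟩ := exists_primitive hN hη hpos
  rw [h]
  exact hSt A η hA hAc hs hcl

/-! ### closed compactly supported forms, the pairing -/

section pairing

/-- the wedge product of two-forms in a chart -/
theorem loc2_wedge (F G : TwoF X) (e : Ch X) (z : C2) :
    loc2 1 e (F.wedge G) z =
      loc0 1 e F.f20 z * loc2 0 e G.f02 z + loc2 0 e F.f02 z * loc0 1 e G.f20 z -
        (loc11 e F.f11 z 0 0 * loc11 e G.f11 z 1 1 + loc11 e F.f11 z 1 1 * loc11 e G.f11 z 0 0 -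
          loc11 e F.f11 z 0 1 * loc11 e G.f11 z 1 0 - loc11 e F.f11 z 1 0 * loc11 e G.f11 z 0 1) := by
  simp only [loc2, loc0, loc11, TwoF.wedge, Matrix.of_apply, Fin.sum_univ_two, smul_eq_mul,
    Matrix.det_fin_two, zpow_one, zpow_zero, one_mul, map_sub, map_mul]
  ring

theorem reg2_wedge {F G : TwoF X} (hF : F.Smooth) (hG : G.Smooth) : Reg2 ∞ 1 (F.wedge G) := by
  intro e he
  have h : loc2 1 e (F.wedge G) = fun z => loc0 1 e F.f20 z * loc2 0 e G.f02 z +
      loc2 0 e F.f02 z * loc0 1 e G.f20 z -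
        (loc11 e F.f11 z 0 0 * loc11 e G.f11 z 1 1 + loc11 e F.f11 z 1 1 * loc11 e G.f11 z 0 0 -
          loc11 e F.f11 z 0 1 * loc11 e G.f11 z 1 0 -
          loc11 e F.f11 z 1 0 * loc11 e G.f11 z 0 1) := by
    funext z
    exact loc2_wedge F G e z
  rw [h]
  have f20 := hF.s20 e he
  have f02 := hF.s02 e he
  have f11 := hF.s11 e he
  have g20 := hG.s20 e he
  have g02 := hG.s02 e he
  have g11 := hG.s11 e he
  exact ((f20.mul g02).add (f02.mul g20)).sub
    (((((f11 0 0).mul (g11 1 1)).add ((f11 1 1).mul (g11 0 0))).sub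
      ((f11 0 1).mul (g11 1 0))).sub ((f11 1 0).mul (g11 0 1)))

theorem hasCompactSupport_wedge (F : TwoF X) {η : TwoF X} (hη : IsCompact (supp2 η)) :
    HasCompactSupport (F.wedge η) := by
  refine HasCompactSupport.intro' hη isClosed_closure fun x hx => ?_
  obtain ⟨h1, h2, h3⟩ := eq_zero_of_notMem_supp2 hx
  simp [TwoF.wedge, h1, h2, h3]

theorem TwoF_smooth_add {F G : TwoF X} (hF : F.Smooth) (hG : G.Smooth) : (F + G).Smooth where
  s20 e he := by
    have : loc0 1 e (F + G).f20 = fun z => loc0 1 e F.f20 z + loc0 1 e G.f20 z := by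
      funext z
      simp only [loc0, TwoF.f20_add, Pi.add_apply, smul_eq_mul]
      ring
    rw [this]
    exact (hF.s20 e he).add (hG.s20 e he)
  s11 e he i j := by
    have : (fun z => loc11 e (F + G).f11 z i j) =
        fun z => loc11 e F.f11 z i j + loc11 e G.f11 z i j := by
      funext z
      simp only [loc11, TwoF.f11_add, Pi.add_apply, Matrix.of_apply, Matrix.add_apply,
        smul_eq_mul, Fin.sum_univ_two]
      ring
    rw [this]
    exact (hF.s11 e he i j).add (hG.s11 e he i j)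
  s02 e he := by
    have : loc2 0 e (F + G).f02 = fun z => loc2 0 e F.f02 z + loc2 0 e G.f02 z := by
      funext z
      simp only [loc2, TwoF.f02_add, Pi.add_apply, smul_eq_mul]
      ring
    rw [this]
    exact (hF.s02 e he).add (hG.s02 e he)

theorem TwoF_smooth_smul (c : ℂ) {F : TwoF X} (hF : F.Smooth) : (c • F).Smooth where
  s20 e he := by
    have : loc0 1 e (c • F).f20 = fun z => c * loc0 1 e F.f20 z := by
      funext z
      simp only [loc0, TwoF.f20_smul, Pi.smul_apply, smul_eq_mul]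
      ring
    rw [this]
    exact contDiffOn_const.mul (hF.s20 e he)
  s11 e he i j := by
    have : (fun z => loc11 e (c • F).f11 z i j) = fun z => c * loc11 e F.f11 z i j := by
      funext z
      simp only [loc11, TwoF.f11_smul, Pi.smul_apply, Matrix.of_apply, Matrix.smul_apply,
        smul_eq_mul, Fin.sum_univ_two]
      ring
    rw [this]
    exact contDiffOn_const.mul (hF.s11 e he i j)
  s02 e he := by
    have : loc2 0 e (c • F).f02 = fun z => c * loc2 0 e F.f02 z := by
      funext z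
      simp only [loc2, TwoF.f02_smul, Pi.smul_apply, smul_eq_mul]
      ring
    rw [this]
    exact contDiffOn_const.mul (hF.s02 e he)

theorem diffAt_of_reg {f : C2 → ℂ} {e : Ch X} (h : ContDiffOn ℝ ∞ f e.target) {z : C2}
    (hz : z ∈ e.target) : DifferentiableAt ℝ f z :=
  ((h.contDiffAt (e.open_target.mem_nhds hz)).differentiableAt (by simp))

theorem TwoF_closed_add {F G : TwoF X} (hF : F.Smooth) (hG : G.Smooth) (hFc : F.Closed)
    (hGc : G.Closed) : (F + G).Closed := by
  have h0 : ∀ (e : Ch X), loc0 1 e (F + G).f20 = fun z => loc0 1 e F.f20 z + loc0 1 e G.f20 z := by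
    intro e
    funext z
    simp only [loc0, TwoF.f20_add, Pi.add_apply, smul_eq_mul]
    ring
  have h11 : ∀ (e : Ch X) (i j : Fin 2), (fun z => loc11 e (F + G).f11 z i j) =
        fun z => loc11 e F.f11 z i j + loc11 e G.f11 z i j := by
    intro e i j
    funext z
    simp only [loc11, TwoF.f11_add, Pi.add_apply, Matrix.of_apply, Matrix.add_apply,
      smul_eq_mul, Fin.sum_univ_two]
    ring
  have h2 : ∀ (e : Ch X), loc2 0 e (F + G).f02 = fun z => loc2 0 e F.f02 z + loc2 0 e G.f02 z := by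
    intro e
    funext z
    simp only [loc2, TwoF.f02_add, Pi.add_apply, smul_eq_mul]
    ring
  refine ⟨fun x j => ?_, fun x i => ?_⟩
  all_goals
    have heA : chartAt C2 x ∈ atlas C2 X := chart_mem_atlas C2 x
    have hz := mem_chart_target C2 x
    have d11 : ∀ i j, DifferentiableAt ℝ (fun z => loc11 (chartAt C2 x) F.f11 z i j)
      (chartAt C2 x x) := fun i j => diffAt_of_reg (hF.s11 _ heA i j) hz
    have d11' : ∀ i j, DifferentiableAt ℝ (fun z => loc11 (chartAt C2 x) G.f11 z i j)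
      (chartAt C2 x x) := fun i j => diffAt_of_reg (hG.s11 _ heA i j) hz
  · have e1 := hFc.1 x j
    have e2 := hGc.1 x j
    simp only [TwoF.d21, dbar0] at e1 e2 ⊢
    rw [h0, h11, h11, dzb_add (diffAt_of_reg (hF.s20 _ heA) hz) (diffAt_of_reg (hG.s20 _ heA) hz),
      dz_add (d11 _ _) (d11' _ _), dz_add (d11 _ _) (d11' _ _)]
    linear_combination e1 + e2
  · have e1 := hFc.2 x i
    have e2 := hGc.2 x i
    simp only [TwoF.d12] at e1 e2 ⊢
    rw [h2, h11, h11, dz_add (diffAt_of_reg (hF.s02 _ heA) hz) (diffAt_of_reg (hG.s02 _ heA) hz),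
      dzb_add (d11 _ _) (d11' _ _), dzb_add (d11 _ _) (d11' _ _)]
    linear_combination e1 + e2

theorem TwoF_closed_smul (c : ℂ) {F : TwoF X} (hF : F.Smooth) (hFc : F.Closed) :
    (c • F).Closed := by
  have h0 : ∀ (e : Ch X), loc0 1 e (c • F).f20 = fun z => c • loc0 1 e F.f20 z := by
    intro e
    funext z
    simp only [loc0, TwoF.f20_smul, Pi.smul_apply, smul_eq_mul]
    ring
  have h11 : ∀ (e : Ch X) (i j : Fin 2), (fun z => loc11 e (c • F).f11 z i j) =
        fun z => c • loc11 e F.f11 z i j := by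
    intro e i j
    funext z
    simp only [loc11, TwoF.f11_smul, Pi.smul_apply, Matrix.of_apply, Matrix.smul_apply,
      smul_eq_mul, Fin.sum_univ_two]
    ring
  have h2 : ∀ (e : Ch X), loc2 0 e (c • F).f02 = fun z => c • loc2 0 e F.f02 z := by
    intro e
    funext z
    simp only [loc2, TwoF.f02_smul, Pi.smul_apply, smul_eq_mul]
    ring
  refine ⟨fun x j => ?_, fun x i => ?_⟩
  all_goals
    have heA : chartAt C2 x ∈ atlas C2 X := chart_mem_atlas C2 x
    have hz := mem_chart_target C2 x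
    have d11 : ∀ i j, DifferentiableAt ℝ (fun z => loc11 (chartAt C2 x) F.f11 z i j)
      (chartAt C2 x x) := fun i j => diffAt_of_reg (hF.s11 _ heA i j) hz
  · have e1 := hFc.1 x j
    simp only [TwoF.d21, dbar0] at e1 ⊢
    rw [h0, h11, h11, dzb_const_smul c (diffAt_of_reg (hF.s20 _ heA) hz),
      dz_const_smul c (d11 _ _), dz_const_smul c (d11 _ _)]
    simp only [smul_eq_mul]
    linear_combination c * e1
  · have e1 := hFc.2 x i
    simp only [TwoF.d12] at e1 ⊢
    rw [h2, h11, h11, dz_const_smul c (diffAt_of_reg (hF.s02 _ heA) hz),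
      dzb_const_smul c (d11 _ _), dzb_const_smul c (d11 _ _)]
    simp only [smul_eq_mul]
    linear_combination c * e1

theorem supp2_add_subset (F G : TwoF X) : supp2 (F + G) ⊆ supp2 F ∪ supp2 G := by
  refine closure_minimal ?_ (isClosed_closure.union isClosed_closure)
  intro x hx
  by_contra h
  rw [mem_union, not_or] at h
  obtain ⟨h1, h2, h3⟩ := eq_zero_of_notMem_supp2 h.1
  obtain ⟨h4, h5, h6⟩ := eq_zero_of_notMem_supp2 h.2
  simp [h1, h2, h3, h4, h5, h6] at hx

theorem supp2_smul_subset (c : ℂ) (F : TwoF X) : supp2 (c • F) ⊆ supp2 F := by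
  refine closure_minimal ?_ isClosed_closure
  intro x hx
  by_contra h
  obtain ⟨h1, h2, h3⟩ := eq_zero_of_notMem_supp2 h
  simp [h1, h2, h3] at hx

/-- the complex vector space of closed smooth compactly supported complex two-forms -/
def HC (X : Type*) [TopologicalSpace X] [ChartedSpace C2 X] : Submodule ℂ (TwoF X) where
  carrier := {η | η.Smooth ∧ η.Closed ∧ IsCompact (supp2 η)}
  add_mem' := by
    rintro F G ⟨h1, h2, h3⟩ ⟨k1, k2, k3⟩
    exact ⟨TwoF_smooth_add h1 k1, TwoF_closed_add h1 k1 h2 k2,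
      (h3.union k3).of_isClosed_subset isClosed_closure (supp2_add_subset F G)⟩
  zero_mem' := by
    have h0 : supp2 (0 : TwoF X) = ∅ := by simp [supp2]
    refine ⟨?_, ?_, by rw [h0]; exact isCompact_empty⟩
    · have h20 : ∀ e : Ch X, loc0 1 e (0 : TwoF X).f20 = fun _ => 0 := by
        intro e; funext z; simp [loc0]
      have h11 : ∀ (e : Ch X) i j, (fun z => loc11 e (0 : TwoF X).f11 z i j) = fun _ => 0 := by
        intro e i j; funext z; simp [loc11]
      have h02 : ∀ e : Ch X, loc2 0 e (0 : TwoF X).f02 = fun _ => 0 := by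
        intro e; funext z; simp [loc2]
      exact ⟨fun e _ => by rw [h20]; exact contDiffOn_const,
        fun e _ i j => by rw [h11]; exact contDiffOn_const,
        fun e _ => by rw [h02]; exact contDiffOn_const⟩
    · have h20 : ∀ e : Ch X, loc0 1 e (0 : TwoF X).f20 = fun _ => 0 := by
        intro e; funext z; simp [loc0]
      have h11 : ∀ (e : Ch X) i j, (fun z => loc11 e (0 : TwoF X).f11 z i j) = fun _ => 0 := by
        intro e i j; funext z; simp [loc11]
      have h02 : ∀ e : Ch X, loc2 0 e (0 : TwoF X).f02 = fun _ => 0 := by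
        intro e; funext z; simp [loc2]
      refine ⟨fun x j => ?_, fun x i => ?_⟩
      · simp only [TwoF.d21, dbar0, h20, h11, dz_const, dzb_const]
        simp
      · simp only [TwoF.d12, h02, h11, dz_const, dzb_const]
        simp
  smul_mem' := by
    rintro c F ⟨h1, h2, h3⟩
    exact ⟨TwoF_smooth_smul c h1, TwoF_closed_smul c h1 h2,
      h3.of_isClosed_subset isClosed_closure (supp2_smul_subset c F)⟩

/-! ### real version -/

theorem TwoF_real_add {F G : TwoF X} (hF : F.Real) (hG : G.Real) : (F + G).Real := by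
  intro x
  refine ⟨?_, fun i j => ?_⟩
  · simp [(hF x).1, (hG x).1]
  · have h1 := (hF x).2 i j
    have h2 := (hG x).2 i j
    simp only [TwoF.f11_add, Pi.add_apply, Matrix.add_apply, map_add, h1, h2]
    ring

theorem TwoF_real_smul (c : ℝ) {F : TwoF X} (hF : F.Real) : (c • F).Real := by
  intro x
  refine ⟨?_, fun i j => ?_⟩
  · simp only [TwoF.f20_smulR, TwoF.f02_smulR, Pi.smul_apply, Complex.real_smul, map_mul,
      Complex.conj_ofReal, (hF x).1]
  · have h1 := (hF x).2 i j
    simp only [TwoF.f11_smulR, Pi.smul_apply, Matrix.smul_apply, Complex.real_smul, map_mul,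
      Complex.conj_ofReal, h1]
    ring

/-- the real vector space of closed smooth compactly supported real two-forms -/
def HR (X : Type*) [TopologicalSpace X] [ChartedSpace C2 X] : Submodule ℝ (TwoF X) where
  carrier := {η | η ∈ HC X ∧ η.Real}
  add_mem' := fun h k => ⟨(HC X).add_mem h.1 k.1, TwoF_real_add h.2 k.2⟩
  zero_mem' := ⟨(HC X).zero_mem, fun x => by simp⟩
  smul_mem' := fun c F h => by
    refine ⟨?_, TwoF_real_smul c h.2⟩
    have := (HC X).smul_mem (c : ℂ) h.1
    have e : (c : ℂ) • F = c • F := by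
      ext x <;> simp
    rwa [e] at this

theorem HR.mem_HC (η : HR X) : η.1 ∈ HC X := η.2.1

/-- the facts on the integral used for the pairing -/
structure IntAx (X : Type*) [TopologicalSpace X] [ChartedSpace C2 X] : Prop where
  add : ∀ b b' : X → ℂ, Reg2 ∞ 1 b → Reg2 ∞ 1 b' → HasCompactSupport b → HasCompactSupport b' →
    intX (fun x => b x + b' x) = intX b + intX b'
  smul : ∀ (c : ℂ) (b : X → ℂ), Reg2 ∞ 1 b → HasCompactSupport b →
    intX (fun x => c * b x) = c * intX b
  stokes : StokesD X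

variable [IsManifold 𝓘(ℂ, C2) ω X]

/-- the pairing of closed compactly supported forms with the norm function `N`,
`η ↦ ∫ cF N ∧ η` -/
def pairC (hI : IntAx X) {N : X → ℝ} (hN : IsNormFn C2 N) : HC X →ₗ[ℂ] ℂ where
  toFun η := intX ((cF N).wedge η.1)
  map_add' η η' := by
    have h : (cF N).wedge (η + η').1 =
        fun x => (cF N).wedge η.1 x + (cF N).wedge η'.1 x := by
      funext x
      simp only [TwoF.wedge, Submodule.coe_add, TwoF.f20_add, TwoF.f11_add, TwoF.f02_add,
        Pi.add_apply, Matrix.add_apply]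
      ring
    rw [h]
    exact hI.add _ _ (reg2_wedge (cF_smooth hN) η.2.1) (reg2_wedge (cF_smooth hN) η'.2.1)
      (hasCompactSupport_wedge _ η.2.2.2) (hasCompactSupport_wedge _ η'.2.2.2)
  map_smul' c η := by
    have h : (cF N).wedge (c • η).1 = fun x => c * (cF N).wedge η.1 x := by
      funext x
      simp only [TwoF.wedge, Submodule.coe_smul, TwoF.f20_smul, TwoF.f11_smul, TwoF.f02_smul,
        Pi.smul_apply, Matrix.smul_apply, smul_eq_mul]
      ring
    rw [h]
    exact hI.smul c _ (reg2_wedge (cF_smooth hN) η.2.1) (hasCompactSupport_wedge _ η.2.2.2)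

theorem pairC_apply (hI : IntAx X) {N : X → ℝ} (hN : IsNormFn C2 N) (η : HC X) :
    pairC hI hN η = intX ((cF N).wedge η.1) := rfl

/-- additivity of the pairing in `N` -/
theorem pairC_mul (hI : IntAx X) {N N' : X → ℝ} (hN : IsNormFn C2 N) (hN' : IsNormFn C2 N')
    (η : HC X) : pairC hI (hN.mul hN') η = pairC hI hN η + pairC hI hN' η := by
  simp only [pairC_apply]
  rw [← hI.add _ _ (reg2_wedge (cF_smooth hN) η.2.1) (reg2_wedge (cF_smooth hN') η.2.1)
    (hasCompactSupport_wedge _ η.2.2.2) (hasCompactSupport_wedge _ η.2.2.2)]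
  congr 1
  funext x
  have h := curvN_mul hN hN' x
  simp only [TwoF.wedge, cF, h, Matrix.add_apply]
  ring

/-- **PAIR-ZERO** -/
theorem pairC_eq_zero [T2Space X] [SigmaCompactSpace X] (hI : IntAx X) {N : X → ℝ}
    (hN : IsNormFn C2 N) (η : HC X) (hpos : ∀ x ∈ supp2 η.1, 0 < N x) : pairC hI hN η = 0 :=
  intX_cF_wedge_eq_zero hI.stokes hN η.2.1 η.2.2.1 η.2.2.2 hpos

/-- locality: the pairing depends only on `N` near the support of `η` -/
theorem pairC_congr (hI : IntAx X) {N N' : X → ℝ} (hN : IsNormFn C2 N) (hN' : IsNormFn C2 N')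
    (η : HC X) (h : ∀ x ∈ supp2 η.1, N =ᶠ[𝓝 x] N') : pairC hI hN η = pairC hI hN' η := by
  simp only [pairC_apply]
  congr 1
  funext x
  by_cases hx : x ∈ supp2 η.1
  · simp only [TwoF.wedge, cF, curvN_congr hN (h x hx)]
  · obtain ⟨h1, h2, h3⟩ := eq_zero_of_notMem_supp2 hx
    simp [TwoF.wedge, h1, h2, h3]

/-- the real pairing `η ↦ ∫ c₁(N) ∧ η`, `c₁(N) = (i/2π) cF N` -/
def pairR (hI : IntAx X) {N : X → ℝ} (hN : IsNormFn C2 N) : HR X →ₗ[ℝ] ℝ where
  toFun η := (Complex.I / (2 * Real.pi) * pairC hI hN ⟨η.1, η.2.1⟩).re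
  map_add' η η' := by
    have h : (⟨(η + η').1, (η + η').2.1⟩ : HC X) = ⟨η.1, η.2.1⟩ + ⟨η'.1, η'.2.1⟩ := rfl
    rw [h, map_add, mul_add, Complex.add_re]
  map_smul' c η := by
    have h : (⟨(c • η).1, (c • η).2.1⟩ : HC X) = (c : ℂ) • ⟨η.1, η.2.1⟩ := by
      apply Subtype.ext
      show (c • η.1 : TwoF X) = (c : ℂ) • η.1
      ext x <;> simp
    rw [h, map_smul, smul_eq_mul, RingHom.id_apply, smul_eq_mul]
    have : Complex.I / (2 * Real.pi) * ((c : ℂ) * pairC hI hN ⟨η.1, η.2.1⟩) =
        (c : ℂ) * (Complex.I / (2 * Real.pi) * pairC hI hN ⟨η.1, η.2.1⟩) := by ring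
    rw [this, Complex.re_ofReal_mul]

theorem pairR_mul (hI : IntAx X) {N N' : X → ℝ} (hN : IsNormFn C2 N) (hN' : IsNormFn C2 N')
    (η : HR X) : pairR hI (hN.mul hN') η = pairR hI hN η + pairR hI hN' η := by
  change (_ * pairC hI (hN.mul hN') ⟨η.1, η.2.1⟩).re = _
  rw [pairC_mul hI hN hN', mul_add, Complex.add_re]
  rfl

theorem pairR_eq_zero [T2Space X] [SigmaCompactSpace X] (hI : IntAx X) {N : X → ℝ}
    (hN : IsNormFn C2 N) (η : HR X) (hpos : ∀ x ∈ supp2 η.1, 0 < N x) : pairR hI hN η = 0 := by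
  change (_ * pairC hI hN ⟨η.1, η.2.1⟩).re = 0
  rw [pairC_eq_zero hI hN _ hpos, mul_zero, Complex.zero_re]

theorem pairR_congr (hI : IntAx X) {N N' : X → ℝ} (hN : IsNormFn C2 N) (hN' : IsNormFn C2 N')
    (η : HR X) (h : ∀ x ∈ supp2 η.1, N =ᶠ[𝓝 x] N') : pairR hI hN η = pairR hI hN' η := by
  change (_ * pairC hI hN ⟨η.1, η.2.1⟩).re = (_ * pairC hI hN' ⟨η.1, η.2.1⟩).re
  rw [pairC_congr hI hN hN' _ h]

end pairing

end Vale.Agent.P267.H332
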